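import Vale.Agent.P210.R2.H546.End

open scoped Manifold ContDiff Topology Bundle ENNReal NNReal
open Set Metric Filter Bundle IsManifold MeasureTheory Manifold Asymptotics

set_option maxSynthPendingDepth 3
set_option linter.unusedSectionVars false

noncomputable section

namespace Vale.Agent.P210.R2.H546

open Vale.Agent.P210.R2.H53

section Mfd

variable {E : Type} [NormedAddCommGroup E] [NormedSpace ℝ E] [FiniteDimensional ℝ E]
  [MeasurableSpace E] [BorelSpace E]
  {M : Type} [MetricSpace M] [ChartedSpace E M]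
  [RiemannianBundle (fun x : M => TangentSpace 𝓘(ℝ, E) x)]
  [MeasurableSpace M] [BorelSpace M] [ProperSpace M]

/-- the distance to a point outside a ball has gradient `1` there -/
lemma int_dist_self {μ : Measure M} (hc : Cal E μ) (p y : M) {a : ℝ} (h : a ≤ dist p y) :
    ∫ q in ball y a, |Gam E (fun q => dist p q) (fun q => dist p q) q - 1| ∂μ = 0 := by
  have h1 : ∀ᵐ q ∂(μ.restrict (ball y a)),
      |Gam E (fun q => dist p q) (fun q => dist p q) q - 1| = (0 : M → ℝ) q := by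
    rw [ae_restrict_iff' measurableSet_ball]
    filter_upwards [hc.diff _ (LipschitzWith.dist_right p).locallyLipschitz] with q hq hqa
    have hne : p ≠ q := by
      rintro rfl
      exact absurd (mem_ball.1 hqa) (not_lt.2 h)
    rw [hc.dist p q hne hq, sub_self, abs_zero]
    rfl
  rw [integral_congr_ae h1]
  simp

lemma int_test_le {μ : Measure M} (hc : Cal E μ) {Φ : M → ℝ} (y : M) {a : ℝ}
    (hΦ0 : ∀ q, 0 ≤ Φ q) (hΦ1 : ∀ q, Φ q ≤ 1) (hz : ∀ q, a ≤ dist q y → Φ q = 0) :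
    ∫ q, Φ q ∂μ ≤ μ.real (ball y a) := by
  have hfin : μ (ball y a) < ⊤ := lt_top_of_subset hc ball_subset_closedBall
  have hi : IntegrableOn (fun _ : M => (1 : ℝ)) (ball y a) μ := integrableOn_const hfin.ne
  have h1 := integral_mono_of_nonneg (μ := μ) (Eventually.of_forall hΦ0)
    ((integrable_indicator_iff measurableSet_ball).2 hi)
    (Eventually.of_forall (p := fun q => Φ q ≤ (ball y a).indicator (fun _ => (1 : ℝ)) q)
      fun q => by
        by_cases hq : q ∈ ball y a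
        · rw [indicator_of_mem hq]
          exact hΦ1 q
        · rw [indicator_of_notMem hq, hz q (not_lt.1 fun h => hq (mem_ball.2 h))])
  refine h1.trans (le_of_eq ?_)
  rw [integral_indicator measurableSet_ball, setIntegral_const, smul_eq_mul, mul_one]

end Mfd

lemma end_num {C C4 t η K μr lhs rhs I J A B D : ℝ} (hC : 1 ≤ C) (hμ : 0 < μr) (hK : K ≤ η)
    (hη : 0 ≤ η) (h1 : μr ≤ lhs + A * ((t * C4 + 2 * t + η) * μr))
    (h2 : lhs ≤ C * rhs + C * K * I)
    (h3 : rhs ≤ t * B * μr) (h4 : I ≤ C4 * μr) (h5 : 0 ≤ I)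
    (hJ : J = A * (C4 + 2) + C * B) (hD : D = A + C * C4)
    (ht : t * J ≤ 1 / 4) (he : η * D ≤ 1 / 4) : False := by
  have e1 : C * rhs ≤ C * (t * B * μr) := mul_le_mul_of_nonneg_left h3 (by linarith)
  have a1 : K * I ≤ η * I := mul_le_mul_of_nonneg_right hK h5
  have a3 : η * I ≤ η * (C4 * μr) := mul_le_mul_of_nonneg_left h4 hη
  have e2 : C * K * I ≤ C * (η * (C4 * μr)) := by
    calc C * K * I = C * (K * I) := by ring
      _ ≤ C * (η * (C4 * μr)) := mul_le_mul_of_nonneg_left (a1.trans a3) (by linarith)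
  have e3 : μr ≤ (t * J + η * D) * μr := by
    rw [hJ, hD]
    calc μr ≤ C * (t * B * μr) + C * (η * (C4 * μr)) + A * ((t * C4 + 2 * t + η) * μr) := by
          linarith
      _ = _ := by ring
  have e4 : (t * J + η * D) * μr ≤ (1 / 2) * μr := mul_le_mul_of_nonneg_right (by linarith) hμ.le
  linarith

theorem endr (hA : Stmt.CALA) (hB : Stmt.CALB) (hC : Stmt.CALC) (hD : Stmt.CALD) (hBG : Stmt.BG)
    (hAN : Stmt.AN) (hSCX : Stmt.SCX) : Stmt.END := by
  intro n hn
  obtain ⟨C, hC1, hSC⟩ := hSCX n (by omega)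
  obtain ⟨C4, hC4⟩ : ∃ C4 : ℝ, C4 = 3 * 4 ^ n := ⟨_, rfl⟩
  have hC4p : 0 < C4 := by rw [hC4]; positivity
  obtain ⟨A, hAd⟩ : ∃ A : ℝ, A = 8 * n * ((n - 1 : ℕ) * (n - 1 : ℕ)) := ⟨_, rfl⟩
  have hAp : 0 ≤ A := by rw [hAd]; positivity
  obtain ⟨B, hBd⟩ : ∃ B : ℝ, B = C4 / 2 + (2 * (n - 1 : ℕ) + 2) * (n - 1 : ℕ) := ⟨_, rfl⟩
  have hBp : 0 ≤ B := by rw [hBd]; positivity
  obtain ⟨t, ht0, ht1, htX⟩ := exists_small (Ψ := 1 / 4) (X := A * (C4 + 2) + C * B)
    (by norm_num) (by positivity)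
  obtain ⟨e, he0, he1, heX⟩ := exists_small (Ψ := 1 / 4) (X := A + C * C4)
    (by norm_num) (by positivity)
  obtain ⟨η0, hη0, hAN'⟩ := hAN n (by omega) (t ^ 2) (by positivity)
  obtain ⟨η, hη, g1, g2, g3, g4⟩ : ∃ η > 0, η ≤ η0 ∧ η ≤ e ∧ η ≤ 1 / 16 ∧ η ≤ 1 / C :=
    ⟨min (min η0 e) (min (1 / 16) (1 / C)), by positivity,
      (min_le_left _ _).trans (min_le_left _ _), (min_le_left _ _).trans (min_le_right _ _),
      (min_le_right _ _).trans (min_le_left _ _), (min_le_right _ _).trans (min_le_right _ _)⟩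
  refine ⟨η, hη, 1, one_pos, ?_⟩
  intro E _ _ _ _ _ M _ _ _ _ _ _ _ _ _ h1 hfr μ K hμ hK hRic hScal y r p hL hKr hPole hGr
  have hcal : Cal E μ := cal_of hA hB hD h1 hμ
  have hr0 : 0 < r := by linarith
  have hr2 : 1 ≤ r ^ 2 := one_le_pow₀ hL
  have hKη : K ≤ η := by nlinarith
  obtain ⟨μr, hμr⟩ : ∃ μr, μr = μ.real (ball y r) := ⟨_, rfl⟩
  have hμr0 : 0 < μr := by
    rw [hμr]
    exact ENNReal.toReal_pos (hcal.pos _ isOpen_ball ⟨y, mem_ball_self hr0⟩).ne'
      (lt_top_of_subset hcal ball_subset_closedBall).ne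
  have hvol : μ.real (ball y (4 * r)) ≤ C4 * μr := by
    refine (hBG n (by omega) E M h1 hfr μ K hμ hK hRic y r (4 * r) hr0 (by linarith)).trans ?_
    rw [← hμr, hC4, mul_div_assoc, div_self hr0.ne', mul_one]
    have : Real.exp (K * (4 * r) ^ 2) ≤ 3 := exp_le_three (by nlinarith)
    refine mul_le_mul_of_nonneg_right ?_ hμr0.le
    calc (4 : ℝ) ^ n * Real.exp (K * (4 * r) ^ 2) ≤ 4 ^ n * 3 :=
          mul_le_mul_of_nonneg_left this (by positivity)
      _ = _ := by ring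
  choose u hu hu1 hu2 hu3 using fun i => hAN' E M h1 hfr μ K hμ hK hRic (p i) y r hr0
    (hKr.trans g1) (pole_mono hr0 g1 (hPole i))
  -- constants `σ`
  have hσ' : ∀ i j, ∃ σ : ℝ, |(if i = j then 1 else 0) - σ| ≤ 1 / (16 * n) ∧
      ∫ q in ball y (4 * r), |Gam E (fun q => dist (p i) q) (fun q => dist (p j) q) q - σ| ∂μ ≤
        η * μr := by
    intro i j
    by_cases hij : i = j
    · subst hij
      refine ⟨1, ?_, ?_⟩
      · rw [if_pos rfl, sub_self, abs_zero]; positivity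
      · rw [int_dist_self hcal]
        · positivity
        · have := (hPole i).1
          nlinarith [dist_nonneg (x := p i) (y := y)]
    · obtain ⟨σ, hσ1, hσ2⟩ := hGr i j hij
      refine ⟨σ, ?_, ?_⟩
      · rw [if_neg hij, zero_sub, abs_neg]; exact hσ1
      · rw [hμr]; exact hσ2
  choose σ hσ1 hσ2 using hσ'
  have cc := hC E M h1
  have hGt : ∀ i, TF E (Gam E (u i) (u i)) := fun i => cc.1 _ _ (hu i) (hu i)
  have hHc : ∀ i, Continuous (HS E 0 (u i)) ∧ ∀ q, 0 ≤ HS E 0 (u i) q := fun i =>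
    cc.2.2.1 0 _ (hu i)
  have hGG : ∀ i q, Gam E (Gam E (u i) (u i)) (Gam E (u i) (u i)) q ≤
      4 * HS E 0 (u i) q * Gam E (u i) (u i) q := fun i q => by
    have := cc.2.2.2.2.2.1 0 (u i) q (hu i)
    simpa using this
  obtain ⟨Φ, f1, f2, f3, f4, f5, f6, f7, f8⟩ := exists_test hcal (fun i => Gam E (u i) (u i))
    (fun i => HS E 0 (u i)) (fun i => hcal.tfll _ (hGt i)) (fun i => (hHc i).2) hGG y hr0
  have hl := end_lhs hcal (n := n) (by omega) hu p y hr0 ht0 ht1 hμr hvol σ hσ1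
    (fun i => by rw [hμr]; exact hu2 i) hσ2 f1 f2 f5
  have hrr := end_rhs hcal (fun i => HS E 0 (u i)) (fun i => (hHc i).2) (fun i => (hHc i).1) y hL
    ht0 ht1 hμr0.le hvol (fun i => by rw [hμr]; exact hu3 i) f2 f3 f6 f7 f8
  have hsc := hSC E M h1 hfr μ K hμ hK.le (by
      have : C * K ≤ C * (1 / C) := mul_le_mul_of_nonneg_left (hKη.trans g4) (by linarith)
      rwa [mul_one_div, div_self (by linarith)] at this) hRic hScal u Φ hu f1 f2 f4
  have hI := (int_test_le hcal y f2 f3 f6).trans hvol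
  refine end_num (J := A * (C4 + 2) + C * B) (D := A + C * C4) (B := B) (A := A) hC1 hμr0 hKη
    hη.le ?_ hsc ?_ hI (integral_nonneg f2) rfl rfl htX ?_
  · rw [hAd]
    refine hl.trans (le_of_eq ?_)
    ring
  · rw [hBd]
    exact hrr
  · exact (mul_le_mul_of_nonneg_right g2 (by positivity)).trans heX

end Vale.Agent.P210.R2.H546
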