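import Vale.Agent.P210.R2.H401.CSpec

open Set Metric
open Vale.Agent.P210.R2.H53 (HCge)
open Vale.Agent.P210.R2.H401

namespace Vale.Agent.P210.R2.H546

theorem hc_rho {X : Type} [MetricSpace X] {n : ℕ} {ρ ρ' : ℝ} {A : Set X} {a : ℝ}
    (h : HCge n ρ A a) (hr : ρ ≤ ρ') : HCge n ρ' A a :=
  fun S hS hA => h S (fun c hc => hr.trans (hS c hc)) hA

theorem st_b {n j b : ℕ} {η : ℝ} {S : Sp} (h : St n j (b + 1) η S) : St n j b η S := by
  obtain ⟨y, t, A, p, h1, h2, h3, h4, h5, h6⟩ := h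
  have hb : (2 : ℝ) ^ b ≤ 2 ^ (b + 1) := pow_le_pow_right₀ one_le_two (Nat.le_succ b)
  have ht : 0 < t := lt_of_lt_of_le (by positivity) h1
  refine ⟨y, t, A, p, hb.trans h1, h2, h3, hc_rho h4 ?_, h5, h6⟩
  gcongr

theorem fin0 {n : ℕ} {C : Sp → Prop} (hI : Inp n C) :
    ∃ (b : ℕ) (η : ℝ), 0 < η ∧ ∀ S, C S → ¬ St n (n - 1) b η S := by
  obtain ⟨η, hη, L, hL, h⟩ := hI.fin
  obtain ⟨b, hb⟩ := pow_unbounded_of_one_lt L one_lt_two
  refine ⟨b, η, hη, fun S hS => ?_⟩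
  rintro ⟨y, t, A, p, h1, h2, h3, h4, h5, h6⟩
  have ht : 0 < t := lt_of_lt_of_le (by positivity) h1
  have h8 : 4 * (2 * t) = 8 * t := by ring
  refine h S hS y (2 * t) p (by linarith) h2 h5 fun i j hij => ?_
  rw [h8]
  rcases lt_or_gt_of_ne hij with h7 | h7
  · exact h6 i j h7
  · obtain ⟨σ, hσ, hg⟩ := h6 j i h7
    exact ⟨σ, hσ, (hI.ax S hS).gs _ _ _ _ _ _ hg⟩

theorem desc (hstep : Stmt.STEP) {n : ℕ} (hn : 2 ≤ n) {C : Sp → Prop} (hI : Inp n C) (m : ℕ)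
    (hm : m + 1 ≤ n) :
    ∃ (b : ℕ) (η : ℝ), 0 < η ∧ ∀ S, C S → ¬ St n (n - 1 - m) b η S := by
  induction m with
  | zero => exact fin0 hI
  | succ m ih =>
    have h := ih (by omega)
    have e : n - 1 - m = (n - 1 - (m + 1)) + 1 := by omega
    rw [e] at h
    exact hstep n C hn hI (n - 1 - (m + 1)) (by omega) h

theorem abs_of (hstep : Stmt.STEP) (hdens : Stmt.DENS) (hcov : Stmt.COVER) : Stmt.ABS := by
  intro n C hn hI ε hε
  obtain ⟨b₀, η, hη, h0⟩ := desc hstep hn hI (n - 1) (by omega)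
  rw [Nat.sub_self] at h0
  obtain ⟨b, hb1, h1⟩ : ∃ b : ℕ, 1 ≤ b ∧ ∀ S, C S → ¬ St n 0 b η S :=
    ⟨b₀ + 1, by omega, fun S hS h => h0 S hS (st_b h)⟩
  have hbR : (1 : ℝ) ≤ b := by exact_mod_cast hb1
  have hq1 : 1 - 1 / (2 * (b : ℝ)) < 1 := by
    have : 0 < 1 / (2 * (b : ℝ)) := by positivity
    linarith
  obtain ⟨N, hN⟩ := exists_pow_lt_of_lt_one (show 0 < ε / 2 ^ n by positivity) hq1
  obtain ⟨D, hD, hcov⟩ := hcov n 4
  set R : ℝ := 2 ^ (N + b) with hR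
  have hR0 : 0 < R := by positivity
  refine ⟨R, hR0, min 1 η / (4 * R ^ 2), by positivity, fun S hS hK y hc => ?_⟩
  have hax := hI.ax S hS
  have hKR : S.K * (2 * R) ^ 2 ≤ min 1 η := by
    rw [le_div_iff₀ (by positivity)] at hK
    linarith
  have hKt : ∀ t, 0 ≤ t → t ≤ R → S.K * (2 * t) ^ 2 ≤ min 1 η := fun t h0 h1 => by
    have : (2 * t) ^ 2 ≤ (2 * R) ^ 2 := by gcongr
    exact (mul_le_mul_of_nonneg_left this hax.Kpos.le).trans hKR
  have hle : ∀ k : ℕ, R / 2 ^ k ≤ R := fun k =>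
    div_le_self hR0.le (one_le_pow₀ one_le_two)
  obtain ⟨k, hk, -, w, hw, hc'⟩ := hdens S.X n b D N 1 0 1 R ε (closedBall y R) ∅ hn hb1 hD hR0
    one_pos (by rw [hR, div_self (by positivity)]) (by simp) (fun k hk w => by
      have hp : 0 < R / 2 ^ k := by positivity
      have e : R / 2 ^ (k + 1) = (R / 2 ^ k) / 2 := by rw [pow_succ]; field_simp
      obtain ⟨F, hF, hF'⟩ := (hcov S hax w (R / 2 ^ (k + 1)) (2 * (R / 2 ^ k)) (by positivity)
        (by rw [e]; linarith) (by rw [e]; linarith)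
        ((hKt _ hp.le (hle k)).trans (min_le_left _ _))).2
        (closedBall y R ∩ closedBall w (2 * (R / 2 ^ k))) inter_subset_right
      exact ⟨F, hF, hF'⟩)
    ⟨{y}, by simp, by simp⟩ hc (by
      have : (0 : ℝ) < 2 ^ n := by positivity
      rw [lt_div_iff₀ this] at hN
      push_cast
      linarith)
  have hp : 0 < R / 2 ^ k := by positivity
  refine h1 S hS ⟨w, R / 2 ^ k, closedBall y R ∩ closedBall w (2 * (R / 2 ^ k)), fun i => i.elim0,
    ?_, (hKt _ hp.le (hle k)).trans (min_le_right _ _), inter_subset_right, hc',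
    fun i => i.elim0, fun i => i.elim0⟩
  rw [le_div_iff₀ (by positivity), hR, ← pow_add]
  exact pow_le_pow_right₀ one_le_two (by omega)

end Vale.Agent.P210.R2.H546
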