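import Vale.Agent.P210.R2.H546.Slope

open scoped Manifold ContDiff Topology Bundle ENNReal NNReal
open Set Metric Filter Bundle IsManifold MeasureTheory Manifold Asymptotics

set_option maxSynthPendingDepth 3
set_option linter.unusedSectionVars false

noncomputable section

namespace Vale.Agent.P210.R2.H546

open Vale.Agent.P210.R2.H53

section Mfd

variable {E : Type} [NormedAddCommGroup E] [NormedSpace ℝ E] [FiniteDimensional ℝ E]
  [MeasurableSpace E] [BorelSpace E]
  {M : Type} [MetricSpace M] [ChartedSpace E M]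
  [RiemannianBundle (fun x : M => TangentSpace 𝓘(ℝ, E) x)]
  [MeasurableSpace M] [BorelSpace M] [ProperSpace M]

/-- the norm of the gradient -/
def gr (E : Type) [NormedAddCommGroup E] [NormedSpace ℝ E] {M : Type} [MetricSpace M]
    [ChartedSpace E M] [RiemannianBundle (fun x : M => TangentSpace 𝓘(ℝ, E) x)]
    (f : M → ℝ) (p : M) : ℝ := √(Gam E f f p)

lemma gr_nonneg (f : M → ℝ) (p : M) : 0 ≤ gr E f p := Real.sqrt_nonneg _

lemma gr_sq {μ : Measure M} (hc : Cal E μ) (f : M → ℝ) (p : M) : gr E f p ^ 2 = Gam E f f p :=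
  Real.sq_sqrt (hc.nonneg f p)

lemma abs_gam_le_gr {μ : Measure M} (hc : Cal E μ) (u v : M → ℝ) (p : M) :
    |Gam E u v p| ≤ gr E u p * gr E v p := abs_gam_le hc u v p

lemma gr_mul {μ : Measure M} (hc : Cal E μ) (u v : M → ℝ) (p : M)
    (hu : MDifferentiableAt 𝓘(ℝ, E) 𝓘(ℝ, ℝ) u p) (hv : MDifferentiableAt 𝓘(ℝ, E) 𝓘(ℝ, ℝ) v p) :
    gr E (fun q => u q * v q) p ≤ |u p| * gr E v p + |v p| * gr E u p := by
  have h1 := hc.mul u v (fun q => u q * v q) p hu hv
  have h2 := abs_gam_le_gr hc v (fun q => u q * v q) p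
  have h3 := abs_gam_le_gr hc u (fun q => u q * v q) p
  have h4 := gr_sq hc (fun q => u q * v q) p
  have h0 := gr_nonneg (E := E) (fun q => u q * v q) p
  by_contra hlt
  push Not at hlt
  have hpos : 0 < gr E (fun q => u q * v q) p := lt_of_le_of_lt (add_nonneg
    (mul_nonneg (abs_nonneg _) (gr_nonneg _ _)) (mul_nonneg (abs_nonneg _) (gr_nonneg _ _))) hlt
  have h5 : gr E (fun q => u q * v q) p ^ 2 ≤
      (|u p| * gr E v p + |v p| * gr E u p) * gr E (fun q => u q * v q) p := by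
    rw [h4, h1]
    have a1 : u p * Gam E v (fun q => u q * v q) p ≤
        |u p| * (gr E v p * gr E (fun q => u q * v q) p) := by
      refine (le_abs_self _).trans ?_
      rw [abs_mul]
      exact mul_le_mul_of_nonneg_left h2 (abs_nonneg _)
    have a2 : v p * Gam E u (fun q => u q * v q) p ≤
        |v p| * (gr E u p * gr E (fun q => u q * v q) p) := by
      refine (le_abs_self _).trans ?_
      rw [abs_mul]
      exact mul_le_mul_of_nonneg_left h3 (abs_nonneg _)
    nlinarith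
  nlinarith

lemma gr_const {μ : Measure M} (hc : Cal E μ) (c : ℝ) (p : M) : gr E (fun _ : M => c) p = 0 := by
  unfold gr
  rw [hc.const, Real.sqrt_zero]

lemma gr_congr {μ : Measure M} (hc : Cal E μ) {u v : M → ℝ} {p : M} (h : u =ᶠ[𝓝 p] v) :
    gr E u p = gr E v p := by
  unfold gr
  rw [hc.congr _ _ _ _ h, hc.symm v u, hc.congr _ _ _ _ h]

lemma ll_prod {ι : Type*} [DecidableEq ι] (s : Finset ι) {f : ι → M → ℝ}
    (hf : ∀ i, LocallyLipschitz (f i)) : LocallyLipschitz (fun q => ∏ i ∈ s, f i q) := by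
  induction s using Finset.induction_on with
  | empty => simpa using LocallyLipschitz.const (1 : ℝ)
  | insert a s ha ih =>
    simp_rw [Finset.prod_insert ha]
    exact ll_mul (hf a) ih

lemma gr_prod {μ : Measure M} (hc : Cal E μ) {ι : Type*} [DecidableEq ι] {f : ι → M → ℝ} (p : M)
    (hd : ∀ i, MDifferentiableAt 𝓘(ℝ, E) 𝓘(ℝ, ℝ) (f i) p)
    (hs : ∀ s : Finset ι, MDifferentiableAt 𝓘(ℝ, E) 𝓘(ℝ, ℝ) (fun q => ∏ i ∈ s, f i q) p)
    (h0 : ∀ i, 0 ≤ f i p) (h1 : ∀ i, f i p ≤ 1) (s : Finset ι) :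
    gr E (fun q => ∏ i ∈ s, f i q) p ≤ ∑ i ∈ s, gr E (f i) p := by
  induction s using Finset.induction_on with
  | empty =>
    simp only [Finset.prod_empty, Finset.sum_empty]
    exact (gr_const hc _ _).le
  | insert a s ha ih =>
    simp_rw [Finset.prod_insert ha]
    rw [Finset.sum_insert ha]
    refine (gr_mul hc (f a) (fun q => ∏ i ∈ s, f i q) p (hd a) (hs s)).trans ?_
    have e1 : |f a p| ≤ 1 := by rw [abs_of_nonneg (h0 a)]; exact h1 a
    have e2 : |∏ i ∈ s, f i p| ≤ 1 := by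
      rw [abs_of_nonneg (Finset.prod_nonneg fun i _ => h0 i)]
      exact Finset.prod_le_one (fun i _ => h0 i) fun i _ => h1 i
    have g1 := gr_nonneg (E := E) (f a) p
    have g2 := gr_nonneg (E := E) (fun q => ∏ i ∈ s, f i q) p
    nlinarith

/-- truncation: `1` on `[0, 2]`, `0` on `[4, ∞)` -/
def psi (t : ℝ) : ℝ := cl 0 1 (2 - t / 2)

lemma psi_nonneg (t : ℝ) : 0 ≤ psi t := cl_ge _ _ _

lemma psi_le_one (t : ℝ) : psi t ≤ 1 := cl_le zero_le_one _

lemma psi_one {t : ℝ} (h : t ≤ 2) : psi t = 1 := cl_eq_right (by linarith) zero_le_one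

lemma psi_zero {t : ℝ} (h : 4 ≤ t) : psi t = 0 := cl_eq_left (by linarith)

lemma psi_anti : Monotone (fun t => -psi t) := fun s t h => by
  simp only [neg_le_neg_iff]
  exact cl_mono 0 1 (by linarith)

lemma psi_lip : LipschitzWith (1 / 2) (fun t => -psi t) := by
  refine LipschitzWith.of_dist_le_mul fun s t => ?_
  have h := (cl_lip 0 1).dist_le_mul (2 - s / 2) (2 - t / 2)
  have e : dist (-psi s) (-psi t) = dist (psi s) (psi t) := by
    rw [Real.dist_eq, Real.dist_eq, ← abs_neg]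
    congr 1
    ring
  rw [e]
  refine h.trans (le_of_eq ?_)
  rw [Real.dist_eq, Real.dist_eq]
  have e2 : 2 - s / 2 - (2 - t / 2) = -(1 / 2) * (s - t) := by ring
  rw [e2, abs_mul]
  norm_num

lemma gr_psi {μ : Measure M} (hc : Cal E μ) {G : M → ℝ} (hG : Continuous G) {H : ℝ} (p : M)
    (hH : 0 ≤ H) (hGd : MDifferentiableAt 𝓘(ℝ, E) 𝓘(ℝ, ℝ) G p)
    (h : Gam E G G p ≤ 4 * H * G p) : gr E (fun q => psi (G q)) p ≤ 2 * √H := by
  rcases le_or_gt (G p) 4 with h4 | h4
  · obtain ⟨l, hl0, hl1, hl⟩ := hc.mono (fun t => -psi t) (1 / 2) G p psi_anti psi_lip hGd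
    have e1 : Gam E (fun q => psi (G q)) (fun q => psi (G q)) p = l ^ 2 * Gam E G G p := by
      have e2 : (fun q => psi (G q)) = fun q => (-1 : ℝ) * (fun q => -psi (G q)) q := by
        funext q; ring
      rw [e2, hc.smul, hc.symm, hc.smul, hl, hc.symm, hl]
      ring
    have e3 : Gam E (fun q => psi (G q)) (fun q => psi (G q)) p ≤ 4 * H := by
      rw [e1]
      have e4 : l ^ 2 ≤ 1 / 4 := by
        have : (l : ℝ) ≤ 1 / 2 := by simpa using hl1
        nlinarith
      have e5 : Gam E G G p ≤ 16 * H := by nlinarith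
      have e6 := hc.nonneg G p
      nlinarith
    unfold gr
    have e7 : (2 : ℝ) * √H = √(4 * H) := by
      rw [Real.sqrt_mul (by norm_num)]
      congr 1
      rw [show (4 : ℝ) = 2 ^ 2 by norm_num, Real.sqrt_sq (by norm_num)]
    rw [e7]
    exact Real.sqrt_le_sqrt e3
  · have h5 : (fun q => psi (G q)) =ᶠ[𝓝 p] fun _ => 0 := by
      filter_upwards [hG.continuousAt.eventually (lt_mem_nhds h4)] with q hq
      exact psi_zero (le_of_lt hq)
    rw [gr_congr hc h5, gr_const hc]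
    positivity

lemma exists_test {μ : Measure M} (hc : Cal E μ) {m : ℕ} (G H : Fin m → M → ℝ)
    (hG : ∀ i, LocallyLipschitz (G i)) (hH : ∀ i q, 0 ≤ H i q)
    (hGG : ∀ i q, Gam E (G i) (G i) q ≤ 4 * H i q * G i q) (y : M) {r : ℝ} (hr : 0 < r) :
    ∃ Φ : M → ℝ, LC Φ ∧ (∀ q, 0 ≤ Φ q) ∧ (∀ q, Φ q ≤ 1) ∧ (∀ q, Φ q ≠ 0 → ∀ i, G i q ≤ 4) ∧
      (∀ q, dist q y ≤ r → (∀ i, G i q ≤ 2) → Φ q = 1) ∧
      (∀ q, 4 * r ≤ dist q y → Φ q = 0) ∧ (∀ q, 4 * r ≤ dist q y → gr E Φ q = 0) ∧
      ∀ᵐ q ∂μ, gr E Φ q ≤ r⁻¹ + ∑ i, 2 * √(H i q) := by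
  obtain ⟨χ, hχ, hχ1, hχ2, hχ3, hχ4⟩ := lc_cutoff y (by linarith : r < 2 * r)
  have hP : LocallyLipschitz (fun q => ∏ i, psi (G i q)) := by
    refine ll_prod Finset.univ fun i => ?_
    exact ((cl_lip 0 1).locallyLipschitz.comp (ll_sub (LocallyLipschitz.const 2)
      (by simpa [div_eq_inv_mul] using ll_smul (2 : ℝ)⁻¹ (hG i))))
  have hP0 : ∀ q, 0 ≤ ∏ i, psi (G i q) := fun q => Finset.prod_nonneg fun i _ => psi_nonneg _
  have hP1 : ∀ q, ∏ i, psi (G i q) ≤ 1 := fun q =>
    Finset.prod_le_one (fun i _ => psi_nonneg _) fun i _ => psi_le_one _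
  have hz : ∀ q, 2 * r ≤ dist q y → χ q * ∏ i, psi (G i q) = 0 := fun q hq => by
    rw [hχ3 q hq, zero_mul]
  refine ⟨fun q => χ q * ∏ i, psi (G i q), LC.mul_right hχ hP,
    fun q => mul_nonneg (hχ1 q).1 (hP0 q), fun q => mul_le_one₀ (hχ1 q).2 (hP0 q) (hP1 q),
    fun q hq i => ?_, fun q h1 h2 => ?_, fun q hq => hz q (by linarith), fun q hq => ?_, ?_⟩
  · by_contra hlt
    push Not at hlt
    refine hq ?_
    have h0 : ∏ i, psi (G i q) = 0 :=
      Finset.prod_eq_zero (f := fun i => psi (G i q)) (Finset.mem_univ i) (psi_zero hlt.le)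
    show χ q * ∏ i, psi (G i q) = 0
    rw [h0, mul_zero]
  · simp only
    rw [hχ2 q h1, one_mul]
    exact Finset.prod_eq_one fun i _ => psi_one (h2 i)
  · have h1 : (fun q => χ q * ∏ i, psi (G i q)) =ᶠ[𝓝 q] fun _ => 0 := by
      have h2 : ∀ᶠ q' in 𝓝 q, 2 * r < dist q' y :=
        (continuous_id.dist continuous_const).continuousAt.eventually
          (lt_mem_nhds (by simp only [id]; linarith))
      filter_upwards [h2] with q' hq'
      exact hz q' hq'.le
    rw [gr_congr hc h1, gr_const hc]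
  · have hd1 : ∀ᵐ q ∂μ, MDifferentiableAt 𝓘(ℝ, E) 𝓘(ℝ, ℝ) χ q := hc.diff χ hχ.ll
    have hd2 : ∀ᵐ q ∂μ, ∀ s : Finset (Fin m), MDifferentiableAt 𝓘(ℝ, E) 𝓘(ℝ, ℝ)
        (fun q => ∏ i ∈ s, psi (G i q)) q := by
      refine ae_all_iff.2 fun s => hc.diff _ (ll_prod s fun i => ?_)
      exact ((cl_lip 0 1).locallyLipschitz.comp (ll_sub (LocallyLipschitz.const 2)
        (by simpa [div_eq_inv_mul] using ll_smul (2 : ℝ)⁻¹ (hG i))))
    have hd3 : ∀ᵐ q ∂μ, ∀ i, MDifferentiableAt 𝓘(ℝ, E) 𝓘(ℝ, ℝ) (G i) q :=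
      ae_all_iff.2 fun i => hc.diff _ (hG i)
    filter_upwards [hd1, hd2, hd3] with q q1 q2 q3
    refine (gr_mul hc χ (fun q => ∏ i, psi (G i q)) q q1 (q2 _)).trans ?_
    have e1 : gr E (fun q => ∏ i, psi (G i q)) q ≤ ∑ i, gr E (fun q => psi (G i q)) q := by
      refine gr_prod hc q (fun i => ?_) q2 (fun i => psi_nonneg _) (fun i => psi_le_one _) _
      simpa using q2 {i}
    have e2 : ∑ i, gr E (fun q => psi (G i q)) q ≤ ∑ i, 2 * √(H i q) :=
      Finset.sum_le_sum fun i _ => gr_psi hc (hG i).continuous q (hH i q) (q3 i) (hGG i q)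
    have e3 : gr E χ q ≤ r⁻¹ := by
      unfold gr
      rw [Real.sqrt_le_left (by positivity)]
      refine hc.lip r⁻¹ χ q (by positivity) (Eventually.of_forall fun q' => ?_)
      have := hχ4 q' q
      rwa [show 2 * r - r = r by ring] at this
    have g1 := gr_nonneg (E := E) χ q
    have g2 := gr_nonneg (E := E) (fun q => ∏ i, psi (G i q)) q
    have a1 : |χ q| ≤ 1 := by rw [abs_of_nonneg (hχ1 q).1]; exact (hχ1 q).2
    have a2 : |∏ i, psi (G i q)| ≤ 1 := by rw [abs_of_nonneg (hP0 q)]; exact hP1 q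
    nlinarith [abs_nonneg (χ q), abs_nonneg (∏ i, psi (G i q))]

/-- the right hand side of the scalar curvature inequality -/
lemma end_rhs {μ : Measure M} (hc : Cal E μ) {m : ℕ} (H : Fin m → M → ℝ)
    (hH : ∀ i q, 0 ≤ H i q) (hHc : ∀ i, Continuous (H i)) (y : M) {r t C4 μr : ℝ} (hr : 1 ≤ r)
    (ht0 : 0 < t) (ht1 : t ≤ 1) (hμr : 0 ≤ μr) (hC4 : μ.real (ball y (4 * r)) ≤ C4 * μr)
    (hI : ∀ i, r ^ 2 * ∫ q in ball y (4 * r), H i q ∂μ ≤ t ^ 2 * μr)
    {Φ : M → ℝ} (hΦ0 : ∀ q, 0 ≤ Φ q) (hΦ1 : ∀ q, Φ q ≤ 1)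
    (hz : ∀ q, 4 * r ≤ dist q y → Φ q = 0) (hgz : ∀ q, 4 * r ≤ dist q y → gr E Φ q = 0)
    (hg : ∀ᵐ q ∂μ, gr E Φ q ≤ r⁻¹ + ∑ i, 2 * √(H i q)) :
    ∫ q, (Φ q * ∑ i, H i q + gr E Φ q * √(∑ i, H i q)) ∂μ ≤
      t * (C4 / 2 + (2 * m + 2) * m) * μr := by
  have hr0 : 0 < r := by linarith
  have hS0 : ∀ q, 0 ≤ ∑ i, H i q := fun q => Finset.sum_nonneg fun i _ => hH i q
  have hfin : μ (ball y (4 * r)) < ⊤ := lt_top_of_subset hc ball_subset_closedBall
  have hSi : IntegrableOn (fun q => ∑ i, H i q) (ball y (4 * r)) μ :=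
    cont_int hc (continuous_finsetSum _ fun i _ => hHc i) ball_subset_closedBall
  have hcn : IntegrableOn (fun _ : M => t / (2 * r ^ 2)) (ball y (4 * r)) μ :=
    integrableOn_const hfin.ne
  have hFi : IntegrableOn (fun q => t / (2 * r ^ 2) + (1 + 2 * m + 1 / (2 * t)) * ∑ i, H i q)
      (ball y (4 * r)) μ := hcn.add (hSi.const_mul _)
  have hle : ∀ᵐ q ∂μ, Φ q * ∑ i, H i q + gr E Φ q * √(∑ i, H i q) ≤
      (ball y (4 * r)).indicator
        (fun q => t / (2 * r ^ 2) + (1 + 2 * m + 1 / (2 * t)) * ∑ i, H i q) q := by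
    filter_upwards [hg] with q hq
    by_cases hD : q ∈ ball y (4 * r)
    · rw [indicator_of_mem hD]
      have hs0 := Real.sqrt_nonneg (∑ i, H i q)
      have hs2 := Real.sq_sqrt (hS0 q)
      have e1 : Φ q * ∑ i, H i q ≤ ∑ i, H i q := mul_le_of_le_one_left (hS0 q) (hΦ1 q)
      have e2 : ∑ i, 2 * √(H i q) ≤ 2 * m * √(∑ i, H i q) := by
        have : ∀ i ∈ (Finset.univ : Finset (Fin m)), 2 * √(H i q) ≤ 2 * √(∑ i, H i q) :=
          fun i _ => mul_le_mul_of_nonneg_left (Real.sqrt_le_sqrt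
            (Finset.single_le_sum (f := fun i => H i q) (fun j _ => hH j q) (Finset.mem_univ i)))
            zero_le_two
        refine (Finset.sum_le_sum this).trans (le_of_eq ?_)
        rw [Finset.sum_const, Finset.card_univ, Fintype.card_fin, nsmul_eq_mul]
        ring
      have e3 : gr E Φ q * √(∑ i, H i q) ≤
          (r⁻¹ + 2 * m * √(∑ i, H i q)) * √(∑ i, H i q) :=
        mul_le_mul_of_nonneg_right (by linarith) hs0
      have e4 := sqrt_le_amgm (hS0 q) (div_pos ht0 hr0)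
      have e5 : r⁻¹ * √(∑ i, H i q) ≤ t / (2 * r ^ 2) + 1 / (2 * t) * ∑ i, H i q := by
        calc r⁻¹ * √(∑ i, H i q) ≤ r⁻¹ * (t / r / 2 + (∑ i, H i q) / (2 * (t / r))) :=
              mul_le_mul_of_nonneg_left e4 (by positivity)
          _ = _ := by field_simp
      nlinarith
    · rw [indicator_of_notMem hD]
      rw [mem_ball, not_lt] at hD
      rw [hz q hD, hgz q hD]
      simp
  have h1 := integral_mono_of_nonneg (Eventually.of_forall fun q => add_nonneg
    (mul_nonneg (hΦ0 q) (hS0 q)) (mul_nonneg (gr_nonneg Φ q) (Real.sqrt_nonneg _)))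
    ((integrable_indicator_iff measurableSet_ball).2 hFi) hle
  refine h1.trans ?_
  rw [integral_indicator measurableSet_ball]
  have e0 : ∫ q in ball y (4 * r), (t / (2 * r ^ 2) + (1 + 2 * m + 1 / (2 * t)) *
      ∑ i, H i q) ∂μ = t / (2 * r ^ 2) * μ.real (ball y (4 * r)) + (1 + 2 * m + 1 / (2 * t)) *
      ∫ q in ball y (4 * r), ∑ i, H i q ∂μ := by
    rw [integral_add hcn (hSi.const_mul _), setIntegral_const,
      integral_const_mul, smul_eq_mul, mul_comm (μ.real _)]
  rw [e0, integral_finsetSum _ fun i _ => cont_int hc (hHc i) ball_subset_closedBall]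
  have hr2 : 1 ≤ r ^ 2 := one_le_pow₀ hr
  have e1 : ∀ i ∈ (Finset.univ : Finset (Fin m)), ∫ q in ball y (4 * r), H i q ∂μ ≤
      t ^ 2 * μr := by
    intro i _
    have h0 : 0 ≤ ∫ q in ball y (4 * r), H i q ∂μ := integral_nonneg fun q => hH i q
    have := hI i
    nlinarith
  have e2 := Finset.sum_le_sum e1
  rw [Finset.sum_const, Finset.card_univ, Fintype.card_fin, nsmul_eq_mul] at e2
  have e3 : t / (2 * r ^ 2) * μ.real (ball y (4 * r)) ≤ t / 2 * (C4 * μr) := by
    refine mul_le_mul ?_ hC4 measureReal_nonneg (by positivity)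
    gcongr
    linarith
  have e4 : (1 + 2 * m + 1 / (2 * t)) * ∑ i, ∫ q in ball y (4 * r), H i q ∂μ ≤
      (1 + 2 * m + 1 / (2 * t)) * (m * (t ^ 2 * μr)) :=
    mul_le_mul_of_nonneg_left e2 (by positivity)
  have e5 : (1 + 2 * m + 1 / (2 * t)) * (m * (t ^ 2 * μr)) ≤
      t * ((2 * m + 2) * m) * μr := by
    have : (1 + 2 * m + 1 / (2 * t)) * (m * (t ^ 2 * μr)) =
        t * (((1 + 2 * m) * t + 1 / 2) * m) * μr := by
      field_simp
    rw [this]
    have h2 : (1 + 2 * (m : ℝ)) * t + 1 / 2 ≤ 2 * m + 2 := by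
      have : (1 + 2 * (m : ℝ)) * t ≤ (1 + 2 * (m : ℝ)) * 1 :=
        mul_le_mul_of_nonneg_left ht1 (by positivity)
      linarith
    gcongr
  calc _ ≤ t / 2 * (C4 * μr) + t * ((2 * m + 2) * m) * μr := by linarith
    _ = _ := by ring

/-- replacing two functions by nearby ones in `Gam` -/
lemma gam_close {μ : Measure M} (hc : Cal E μ) {u v d e : M → ℝ} {p : M} {t : ℝ} (ht0 : 0 < t)
    (hu : MDifferentiableAt 𝓘(ℝ, E) 𝓘(ℝ, ℝ) u p) (hv : MDifferentiableAt 𝓘(ℝ, E) 𝓘(ℝ, ℝ) v p)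
    (hd : MDifferentiableAt 𝓘(ℝ, E) 𝓘(ℝ, ℝ) d p) (he : MDifferentiableAt 𝓘(ℝ, E) 𝓘(ℝ, ℝ) e p)
    (hd1 : Gam E d d p ≤ 1) (he1 : Gam E e e p ≤ 1) :
    |Gam E u v p - Gam E d e p| ≤ t + (Gam E (fun q => u q - d q) (fun q => u q - d q) p +
      Gam E (fun q => v q - e q) (fun q => v q - e q) p) * (1 / (2 * t) + 1 / 2) := by
  have h1 := csub hc u d v p hu hd
  have h2 := csub hc v e d p hv he
  have h3 := csub hc v e (fun q => u q - d q) p hv he
  have s1 := hc.symm (fun q => u q - d q) v p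
  have s2 := hc.symm (fun q => u q - d q) e p
  have s3 := hc.symm d v p
  have s4 := hc.symm d e p
  have a1 := abs_gam_le_gr hc e (fun q => u q - d q) p
  have a2 := abs_gam_le_gr hc (fun q => v q - e q) (fun q => u q - d q) p
  have a3 := abs_gam_le_gr hc (fun q => v q - e q) d p
  have g1 : gr E e p ≤ 1 := Real.sqrt_le_one.2 he1
  have g2 : gr E d p ≤ 1 := Real.sqrt_le_one.2 hd1
  have b1 := sqrt_le_amgm (hc.nonneg (fun q => u q - d q) p) ht0
  have b2 := sqrt_le_amgm (hc.nonneg (fun q => v q - e q) p) ht0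
  have q1 := gr_sq hc (fun q => u q - d q) p
  have q2 := gr_sq hc (fun q => v q - e q) p
  have p1 := gr_nonneg (E := E) (fun q => u q - d q) p
  have p2 := gr_nonneg (E := E) (fun q => v q - e q) p
  change gr E (fun q => u q - d q) p ≤ _ at b1
  change gr E (fun q => v q - e q) p ≤ _ at b2
  set g := gr E (fun q => u q - d q) p
  set g' := gr E (fun q => v q - e q) p
  set A := Gam E (fun q => u q - d q) (fun q => u q - d q) p
  set B := Gam E (fun q => v q - e q) (fun q => v q - e q) p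
  have e1 : Gam E u v p - Gam E d e p = Gam E e (fun q => u q - d q) p +
      Gam E (fun q => v q - e q) (fun q => u q - d q) p + Gam E (fun q => v q - e q) d p := by
    linarith
  rw [e1]
  have t1 := abs_add_le (Gam E e (fun q => u q - d q) p +
      Gam E (fun q => v q - e q) (fun q => u q - d q) p) (Gam E (fun q => v q - e q) d p)
  have t2 := abs_add_le (Gam E e (fun q => u q - d q) p)
      (Gam E (fun q => v q - e q) (fun q => u q - d q) p)
  have t3 : gr E e p * g ≤ g := mul_le_of_le_one_left p1 g1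
  have t4 : g' * gr E d p ≤ g' := mul_le_of_le_one_right p2 g2
  have t5 : g' * g ≤ (A + B) / 2 := by nlinarith [sq_nonneg (g - g')]
  have t6 : (A + B) * (1 / (2 * t) + 1 / 2) = A / (2 * t) + B / (2 * t) + (A + B) / 2 := by ring
  rw [t6]
  linarith

lemma end_lhs {μ : Measure M} (hc : Cal E μ) {n m : ℕ} (hn : 0 < n) {u : Fin m → M → ℝ}
    (hu : ∀ i, TF E (u i)) (p : Fin m → M) (y : M) {r t C4 η μr : ℝ} (hr : 0 < r)
    (ht0 : 0 < t) (ht1 : t ≤ 1) (hμr : μr = μ.real (ball y r))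
    (hC4 : μ.real (ball y (4 * r)) ≤ C4 * μr)
    (σ : Fin m → Fin m → ℝ) (hσ : ∀ i j, |(if i = j then 1 else 0) - σ i j| ≤ 1 / (16 * n))
    (hE : ∀ i, ∫ q in ball y (4 * r), Gam E (fun q => u i q - dist (p i) q)
      (fun q => u i q - dist (p i) q) q ∂μ ≤ t ^ 2 * μr)
    (hH : ∀ i j, ∫ q in ball y (4 * r), |Gam E (fun q => dist (p i) q)
      (fun q => dist (p j) q) q - σ i j| ∂μ ≤ η * μr)
    {Φ : M → ℝ} (hΦ : LC Φ) (hΦ0 : ∀ q, 0 ≤ Φ q)
    (hΦ1 : ∀ q, dist q y ≤ r → (∀ i, Gam E (u i) (u i) q ≤ 2) → Φ q = 1) :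
    μr ≤ (∫ q in {q | ∀ i j, |Gam E (u i) (u j) q - (if i = j then 1 else 0)| ≤ 1 / (4 * n)},
      Φ q ∂μ) + 8 * n * (m * (m * ((t * C4 + 2 * t + η) * μr))) := by
  have hn0 : (0 : ℝ) < n := by exact_mod_cast hn
  have hn1 : (1 : ℝ) ≤ n := by exact_mod_cast hn
  have hfin : μ (ball y (4 * r)) < ⊤ := lt_top_of_subset hc ball_subset_closedBall
  have hfinr : μ (ball y r) < ⊤ := lt_top_of_subset hc ball_subset_closedBall
  have hsub : ball y r ⊆ ball y (4 * r) := ball_subset_ball (by linarith)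
  have hpl : ∀ i, LipschitzWith 1 (fun q : M => dist (p i) q) := fun i =>
    LipschitzWith.dist_right (p i)
  choose Cu hCu using fun i => tf_lip hc (hu i)
  have hwl : ∀ i, LipschitzWith (Cu i + 1) (fun q : M => u i q - dist (p i) q) := fun i =>
    (hCu i).sub (hpl i)
  set S := {q | ∀ i j, |Gam E (u i) (u j) q - (if i = j then 1 else 0)| ≤ 1 / (4 * n)} with hS
  have hSm : MeasurableSet S := by
    rw [hS]
    simp only [Set.ofPred_forall]
    refine MeasurableSet.iInter fun i => MeasurableSet.iInter fun j => ?_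
    exact measurableSet_le ((hc.meas _ _ (hCu i).continuous (hCu j).continuous).sub_const _).abs
      measurable_const
  set F : Fin m → Fin m → M → ℝ := fun i j q => t +
    (Gam E (fun q => u i q - dist (p i) q) (fun q => u i q - dist (p i) q) q +
      Gam E (fun q => u j q - dist (p j) q) (fun q => u j q - dist (p j) q) q) *
      (1 / (2 * t) + 1 / 2) +
      |Gam E (fun q => dist (p i) q) (fun q => dist (p j) q) q - σ i j| with hF
  have hF0 : ∀ i j q, 0 ≤ F i j q := fun i j q => by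
    have h1 := hc.nonneg (fun q => u i q - dist (p i) q) q
    have h2 := hc.nonneg (fun q => u j q - dist (p j) q) q
    have h3 := abs_nonneg (Gam E (fun q => dist (p i) q) (fun q => dist (p j) q) q - σ i j)
    simp only [hF]
    positivity
  have iE : ∀ i, IntegrableOn (fun q => Gam E (fun q => u i q - dist (p i) q)
      (fun q => u i q - dist (p i) q) q) (ball y (4 * r)) μ := fun i =>
    gam_int hc (hwl i) (hwl i) hfin
  have ic : ∀ a : ℝ, IntegrableOn (fun _ : M => a) (ball y (4 * r)) μ := fun a =>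
    integrableOn_const hfin.ne
  have iH : ∀ i j, IntegrableOn (fun q => |Gam E (fun q => dist (p i) q)
      (fun q => dist (p j) q) q - σ i j|) (ball y (4 * r)) μ := fun i j =>
    ((gam_int hc (hpl i) (hpl j) hfin).sub (ic _)).abs
  have iF : ∀ i j, IntegrableOn (F i j) (ball y (4 * r)) μ := fun i j =>
    ((ic t).add (((iE i).add (iE j)).mul_const _)).add (iH i j)
  have hFint : ∀ i j, ∫ q in ball y r, F i j q ∂μ ≤ (t * C4 + 2 * t + η) * μr := by
    intro i j
    refine (setIntegral_mono_set (iF i j) (Eventually.of_forall fun q => hF0 i j q)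
      hsub.eventuallyLE).trans ?_
    have e1 : ∫ q in ball y (4 * r), F i j q ∂μ = t * μ.real (ball y (4 * r)) +
        ((∫ q in ball y (4 * r), Gam E (fun q => u i q - dist (p i) q)
          (fun q => u i q - dist (p i) q) q ∂μ) +
        ∫ q in ball y (4 * r), Gam E (fun q => u j q - dist (p j) q)
          (fun q => u j q - dist (p j) q) q ∂μ) * (1 / (2 * t) + 1 / 2) +
        ∫ q in ball y (4 * r), |Gam E (fun q => dist (p i) q)
          (fun q => dist (p j) q) q - σ i j| ∂μ := by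
      have a1 := integral_add ((ic t).add (((iE i).add (iE j)).mul_const
        (1 / (2 * t) + 1 / 2))) (iH i j)
      have a2 := integral_add (ic t) (((iE i).add (iE j)).mul_const (1 / (2 * t) + 1 / 2))
      have a3 := integral_add (iE i) (iE j)
      simp only [Pi.add_apply] at a1 a2 a3
      simp only [hF]
      rw [a1, a2, integral_mul_const, a3, setIntegral_const, smul_eq_mul, mul_comm t]
    rw [e1]
    have b1 := hE i
    have b2 := hE j
    have b3 := hH i j
    have hμ0 : 0 ≤ μr := by rw [hμr]; exact measureReal_nonneg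
    have b4 : t * μ.real (ball y (4 * r)) ≤ t * (C4 * μr) :=
      mul_le_mul_of_nonneg_left hC4 ht0.le
    have b5 : ((∫ q in ball y (4 * r), Gam E (fun q => u i q - dist (p i) q)
          (fun q => u i q - dist (p i) q) q ∂μ) +
        ∫ q in ball y (4 * r), Gam E (fun q => u j q - dist (p j) q)
          (fun q => u j q - dist (p j) q) q ∂μ) * (1 / (2 * t) + 1 / 2) ≤
        (t ^ 2 * μr + t ^ 2 * μr) * (1 / (2 * t) + 1 / 2) :=
      mul_le_mul_of_nonneg_right (by linarith) (by positivity)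
    have b6 : (t ^ 2 * μr + t ^ 2 * μr) * (1 / (2 * t) + 1 / 2) = (t + t ^ 2) * μr := by
      field_simp
      ring
    have b7 : (t + t ^ 2) * μr ≤ 2 * t * μr := by
      have : t ^ 2 ≤ t := by nlinarith
      nlinarith
    linarith
  have hpt : ∀ᵐ q ∂(μ.restrict (ball y r)), (1 : ℝ) ≤ S.indicator Φ q +
      8 * n * ∑ i, ∑ j, F i j q := by
    rw [ae_restrict_iff' measurableSet_ball]
    have d1 : ∀ᵐ q ∂μ, ∀ i, MDifferentiableAt 𝓘(ℝ, E) 𝓘(ℝ, ℝ) (u i) q :=
      ae_all_iff.2 fun i => hc.diff _ (hc.tfll _ (hu i))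
    have d2 : ∀ᵐ q ∂μ, ∀ i, MDifferentiableAt 𝓘(ℝ, E) 𝓘(ℝ, ℝ) (fun q => dist (p i) q) q :=
      ae_all_iff.2 fun i => hc.diff _ (hpl i).locallyLipschitz
    filter_upwards [d1, d2] with q q1 q2 hq
    have hs0 : 0 ≤ ∑ i, ∑ j, F i j q :=
      Finset.sum_nonneg fun i _ => Finset.sum_nonneg fun j _ => hF0 i j q
    by_cases hqS : q ∈ S
    · rw [indicator_of_mem hqS, hΦ1 q (mem_ball.1 hq).le]
      · have : 0 ≤ 8 * (n : ℝ) * ∑ i, ∑ j, F i j q := by positivity
        linarith
      · intro i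
        have h1 := hqS i i
        rw [if_pos rfl] at h1
        have h2 := (abs_le.1 h1).2
        have h3 : 1 / (4 * (n : ℝ)) ≤ 1 := by
          rw [div_le_one (by positivity)]
          linarith
        linarith
    · rw [indicator_of_notMem hqS, zero_add]
      rw [hS, Set.mem_ofPred_eq] at hqS
      push Not at hqS
      obtain ⟨i, j, hij⟩ := hqS
      have hle : F i j q ≤ ∑ i, ∑ j, F i j q :=
        (Finset.single_le_sum (f := fun j => F i j q) (fun k _ => hF0 i k q)
          (Finset.mem_univ j)).trans (Finset.single_le_sum (f := fun i => ∑ j, F i j q)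
            (fun k _ => Finset.sum_nonneg fun l _ => hF0 k l q) (Finset.mem_univ i))
      have h1 := gam_close hc ht0 (q1 i) (q1 j) (q2 i) (q2 j) (gam_dist_le hc (p i) q)
        (gam_dist_le hc (p j) q)
      have h2 := hσ i j
      have h3 : |Gam E (u i) (u j) q - (if i = j then 1 else 0)| ≤ F i j q + 1 / (16 * n) := by
        have e : Gam E (u i) (u j) q - (if i = j then 1 else 0) =
            (Gam E (u i) (u j) q - Gam E (fun q => dist (p i) q) (fun q => dist (p j) q) q) +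
            (Gam E (fun q => dist (p i) q) (fun q => dist (p j) q) q - σ i j) -
            ((if i = j then 1 else 0) - σ i j) := by ring
        rw [e]
        have t1 := abs_sub ((Gam E (u i) (u j) q -
          Gam E (fun q => dist (p i) q) (fun q => dist (p j) q) q) +
            (Gam E (fun q => dist (p i) q) (fun q => dist (p j) q) q - σ i j))
            ((if i = j then 1 else 0) - σ i j)
        have t2 := abs_add_le (Gam E (u i) (u j) q -
          Gam E (fun q => dist (p i) q) (fun q => dist (p j) q) q)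
            (Gam E (fun q => dist (p i) q) (fun q => dist (p j) q) q - σ i j)
        simp only [hF]
        linarith
      have h4 : 1 / (4 * (n : ℝ)) - 1 / (16 * n) ≤ F i j q := by linarith
      have h5 : 1 / (4 * (n : ℝ)) - 1 / (16 * n) = 3 / (16 * n) := by
        field_simp
        norm_num
      have h6 : 8 * (n : ℝ) * (3 / (16 * n)) ≤ 8 * n * ∑ i, ∑ j, F i j q :=
        mul_le_mul_of_nonneg_left (by linarith) (by positivity)
      have h7 : 8 * (n : ℝ) * (3 / (16 * n)) = 3 / 2 := by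
        field_simp
        norm_num
      linarith
  obtain ⟨CΦ, hCΦ⟩ := hΦ.1
  have hΦi : Integrable Φ μ := by
    have := hc.isFinOn
    exact hΦ.cont.integrable_of_hasCompactSupport hΦ.2
  have iS : Integrable (S.indicator Φ) μ := hΦi.indicator hSm
  have iFr : ∀ i j, IntegrableOn (F i j) (ball y r) μ := fun i j => (iF i j).mono_set hsub
  have iT : IntegrableOn (fun q => 8 * n * ∑ i, ∑ j, F i j q) (ball y r) μ :=
    (integrable_finsetSum _ fun i _ => integrable_finsetSum _ fun j _ => iFr i j).const_mul _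
  have hi1 : IntegrableOn (fun _ : M => (1 : ℝ)) (ball y r) μ := integrableOn_const hfinr.ne
  have key := integral_mono_ae hi1 (iS.integrableOn.add iT) hpt
  have e1 : ∫ _ in ball y r, (1 : ℝ) ∂μ = μr := by
    rw [setIntegral_const, smul_eq_mul, mul_one, hμr]
  have e2 : ∫ q in ball y r, (S.indicator Φ + fun q => 8 * n * ∑ i, ∑ j, F i j q) q ∂μ =
      (∫ q in ball y r, S.indicator Φ q ∂μ) + 8 * n * ∑ i, ∑ j, ∫ q in ball y r, F i j q ∂μ := by
    have a1 := integral_add (μ := μ.restrict (ball y r)) iS.integrableOn iT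
    simp only [Pi.add_apply]
    rw [a1, integral_const_mul, integral_finsetSum _ fun i _ =>
      integrable_finsetSum _ fun j _ => iFr i j]
    congr 2
    refine Finset.sum_congr rfl fun i _ => ?_
    exact integral_finsetSum _ fun j _ => iFr i j
  have e3 : ∫ q in ball y r, S.indicator Φ q ∂μ ≤ ∫ q in S, Φ q ∂μ := by
    rw [← integral_indicator hSm]
    exact setIntegral_le_integral iS (Eventually.of_forall fun q =>
      indicator_nonneg (fun q _ => hΦ0 q) q)
  have e4 : ∑ i, ∑ j, ∫ q in ball y r, F i j q ∂μ ≤ m * (m * ((t * C4 + 2 * t + η) * μr)) := by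
    refine (Finset.sum_le_sum fun i _ => Finset.sum_le_sum fun j _ => hFint i j).trans
      (le_of_eq ?_)
    simp only [Finset.sum_const, Finset.card_univ, Fintype.card_fin, nsmul_eq_mul]
  have e5 : 8 * (n : ℝ) * ∑ i, ∑ j, ∫ q in ball y r, F i j q ∂μ ≤
      8 * n * (m * (m * ((t * C4 + 2 * t + η) * μr))) :=
    mul_le_mul_of_nonneg_left e4 (by positivity)
  rw [e1] at key
  rw [e2] at key
  linarith

end Mfd

end Vale.Agent.P210.R2.H546
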