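import Vale.Agent.P210.R2.H53.Cal
import Mathlib.Analysis.Complex.ExponentialBounds

open scoped Manifold ContDiff Topology Bundle ENNReal NNReal
open Set Metric Filter Bundle IsManifold MeasureTheory Manifold Asymptotics

set_option maxSynthPendingDepth 3
set_option linter.unusedSectionVars false

noncomputable section

namespace Vale.Agent.P210.R2.H546

open Vale.Agent.P210.R2.H53

section Gen

/-- `√f ≤ t / 2 + f / (2 t)` -/
lemma sqrt_le_amgm {f t : ℝ} (hf : 0 ≤ f) (ht : 0 < t) : √f ≤ t / 2 + f / (2 * t) := by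
  have h := Real.sq_sqrt hf
  have h0 := Real.sqrt_nonneg f
  have : t / 2 + f / (2 * t) - √f = (t - √f) ^ 2 / (2 * t) := by
    field_simp
    nlinarith [h]
  have h2 : 0 ≤ (t - √f) ^ 2 / (2 * t) := by positivity
  linarith

lemma int_sqrt_le {X : Type*} [MeasurableSpace X] (μ : Measure X) (D : Set X) (f : X → ℝ)
    (hf : ∀ q, 0 ≤ f q) (hi : IntegrableOn f D μ) (hD : μ D < ⊤) {t : ℝ} (ht : 0 < t) :
    ∫ q in D, √(f q) ∂μ ≤ t / 2 * μ.real D + (∫ q in D, f q ∂μ) / (2 * t) := by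
  have hcn : IntegrableOn (fun _ : X => t / 2) D μ := integrableOn_const hD.ne
  have hi2 : IntegrableOn (fun q => f q / (2 * t)) D μ := hi.div_const _
  have h1 : ∫ q in D, √(f q) ∂μ ≤ ∫ q in D, (t / 2 + f q / (2 * t)) ∂μ := by
    refine integral_mono_of_nonneg (Eventually.of_forall fun q => Real.sqrt_nonneg _) ?_
      (Eventually.of_forall fun q => sqrt_le_amgm (hf q) ht)
    exact hcn.add hi2
  refine h1.trans (le_of_eq ?_)
  have h2 : ∫ q in D, (t / 2 + f q / (2 * t)) ∂μ =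
      (∫ _ in D, t / 2 ∂μ) + ∫ q in D, f q / (2 * t) ∂μ := integral_add hcn hi2
  rw [h2, setIntegral_const, integral_div, smul_eq_mul, mul_comm]

lemma exists_small {Ψ X : ℝ} (hΨ : 0 < Ψ) (hX : 0 ≤ X) : ∃ t > 0, t ≤ 1 ∧ t * X ≤ Ψ := by
  refine ⟨min 1 (Ψ / (X + 1)), lt_min one_pos (by positivity), min_le_left _ _, ?_⟩
  have h1 : min 1 (Ψ / (X + 1)) * X ≤ Ψ / (X + 1) * X :=
    mul_le_mul_of_nonneg_right (min_le_right _ _) hX
  refine h1.trans ?_
  rw [div_mul_eq_mul_div, div_le_iff₀ (by positivity)]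
  nlinarith

end Gen

section Mfd

variable {E : Type} [NormedAddCommGroup E] [NormedSpace ℝ E] [FiniteDimensional ℝ E]
  [MeasurableSpace E] [BorelSpace E]
  {M : Type} [MetricSpace M] [ChartedSpace E M]
  [RiemannianBundle (fun x : M => TangentSpace 𝓘(ℝ, E) x)]
  [MeasurableSpace M] [BorelSpace M] [ProperSpace M]

lemma csub {μ : Measure M} (hc : Cal E μ) (u v w : M → ℝ) (p : M)
    (h1 : MDifferentiableAt 𝓘(ℝ, E) 𝓘(ℝ, ℝ) u p)
    (h2 : MDifferentiableAt 𝓘(ℝ, E) 𝓘(ℝ, ℝ) v p) :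
    Gam E (fun q => u q - v q) w p = Gam E u w p - Gam E v w p := by
  have h3 : MDifferentiableAt 𝓘(ℝ, E) 𝓘(ℝ, ℝ) (fun q => (-1 : ℝ) * v q) p := by
    have : MDifferentiableAt 𝓘(ℝ, E) 𝓘(ℝ, ℝ) ((-1 : ℝ) • v) p := h2.const_smul (-1 : ℝ)
    exact this
  have := hc.add u (fun q => (-1 : ℝ) * v q) w p h1 h3
  rw [hc.smul] at this
  simpa [sub_eq_add_neg] using this

/-- Cauchy-Schwarz with square roots -/
lemma abs_gam_le {μ : Measure M} (hc : Cal E μ) (u v : M → ℝ) (p : M) :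
    |Gam E u v p| ≤ √(Gam E u u p) * √(Gam E v v p) := by
  rw [← Real.sqrt_mul (hc.nonneg u p), ← Real.sqrt_sq_eq_abs]
  exact Real.sqrt_le_sqrt (hc.cs u v p)

lemma gam_le_of_lip {μ : Measure M} (hc : Cal E μ) {C : ℝ≥0} {u : M → ℝ} (hu : LipschitzWith C u)
    (p : M) : Gam E u u p ≤ (C : ℝ) ^ 2 :=
  hc.lip C u p C.2 (Eventually.of_forall fun q => by
    have := hu.dist_le_mul q p
    rwa [Real.dist_eq] at this)

lemma gam_dist_le {μ : Measure M} (hc : Cal E μ) (x p : M) :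
    Gam E (fun q => dist x q) (fun q => dist x q) p ≤ 1 := by
  have := gam_le_of_lip hc (LipschitzWith.dist_right x) p
  simpa using this

/-- the pointwise estimate behind `SLOPE` -/
lemma slope_pt {μ : Measure M} (hc : Cal E μ) {u : M → ℝ} (p x z : M) {s c : ℝ} (hc0 : 0 < c)
    (hc1 : c ≤ 1 / 16) (hs : 0 < s) (hsd : s ≤ c * dist x z) (q : M) (hq : dist q z < 4 * s)
    (hu : MDifferentiableAt 𝓘(ℝ, E) 𝓘(ℝ, ℝ) u q)
    (hp : MDifferentiableAt 𝓘(ℝ, E) 𝓘(ℝ, ℝ) (fun q => dist p q) q) :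
    |Gam E (fun q => dist p q) (fun q => dist x q) q - (dist p z - dist p x) / dist x z| ≤
      2 * √(Gam E (fun q => u q - dist p q) (fun q => u q - dist p q) q) +
      (dist x z)⁻¹ * |(1 - c) * dist x q * Gam E u (fun q => dist x q) q -
        (dist p q - dist p x)| + 10 * c := by
  set d := dist x z with hd
  have hdpos : 0 < d := by
    by_contra h
    push Not at h
    have : c * d ≤ 0 := mul_nonpos_of_nonneg_of_nonpos hc0.le h
    linarith
  set g := √(Gam E (fun q => u q - dist p q) (fun q => u q - dist p q) q) with hg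
  set a := Gam E (fun q => dist p q) (fun q => dist x q) q with ha
  set G := Gam E u (fun q => dist x q) q with hG
  have hb : |G - a| ≤ g := by
    have h1 : Gam E (fun q => u q - dist p q) (fun q => dist x q) q = G - a :=
      csub hc _ _ _ _ hu hp
    have h2 := abs_gam_le hc (fun q => u q - dist p q) (fun q => dist x q) q
    rw [h1] at h2
    refine h2.trans ?_
    have h3 : √(Gam E (fun q => dist x q) (fun q => dist x q) q) ≤ 1 :=
      Real.sqrt_le_one.2 (gam_dist_le hc x q)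
    nlinarith [Real.sqrt_nonneg (Gam E (fun q => u q - dist p q) (fun q => u q - dist p q) q)]
  have ha1 : |a| ≤ 1 := by
    have h2 := abs_gam_le hc (fun q => dist p q) (fun q => dist x q) q
    have h3 : √(Gam E (fun q => dist x q) (fun q => dist x q) q) ≤ 1 :=
      Real.sqrt_le_one.2 (gam_dist_le hc x q)
    have h4 : √(Gam E (fun q => dist p q) (fun q => dist p q) q) ≤ 1 :=
      Real.sqrt_le_one.2 (gam_dist_le hc p q)
    refine h2.trans ?_
    nlinarith [Real.sqrt_nonneg (Gam E (fun q => dist p q) (fun q => dist p q) q),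
      Real.sqrt_nonneg (Gam E (fun q => dist x q) (fun q => dist x q) q)]
  have hg0 : 0 ≤ g := Real.sqrt_nonneg _
  have hG1 : |G| ≤ 1 + g := by
    have := abs_add_le (G - a) a
    rw [sub_add_cancel] at this
    linarith
  have hD : |dist x q - d| ≤ 4 * c * d := by
    have h1 := abs_dist_sub_le q z x
    rw [dist_comm q x, dist_comm z x] at h1
    linarith
  have hP : |dist p q - dist p z| ≤ 4 * c * d := by
    have h1 := abs_dist_sub_le q z p
    rw [dist_comm q p, dist_comm z p] at h1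
    linarith
  have hD2 : |d - (1 - c) * dist x q| ≤ 6 * c * d := by
    have e1 : d - (1 - c) * dist x q = (1 - c) * (d - dist x q) + c * d := by ring
    rw [e1]
    have h2 := abs_add_le ((1 - c) * (d - dist x q)) (c * d)
    rw [abs_mul, abs_mul, abs_of_nonneg (by linarith : 0 ≤ 1 - c), abs_of_pos hc0,
      abs_of_pos hdpos, abs_sub_comm] at h2
    have h3 : (1 - c) * |dist x q - d| ≤ 1 * (4 * c * d) :=
      mul_le_mul (by linarith) hD (abs_nonneg _) zero_le_one
    have : 0 ≤ c * d := by positivity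
    linarith
  set e := (1 - c) * dist x q * G - (dist p q - dist p x) with he
  have key : d * (a - (dist p z - dist p x) / d) = e + (d - (1 - c) * dist x q) * G
      - d * (G - a) + (dist p q - dist p z) := by
    rw [he]
    field_simp
    ring
  have habs : d * |a - (dist p z - dist p x) / d| ≤ |e| + 6 * c * d * (1 + g) + d * g
      + 4 * c * d := by
    rw [← abs_of_pos hdpos, ← abs_mul, abs_of_pos hdpos, key]
    have t1 := abs_add_le (e + (d - (1 - c) * dist x q) * G - d * (G - a)) (dist p q - dist p z)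
    have t2 := abs_sub (e + (d - (1 - c) * dist x q) * G) (d * (G - a))
    have t3 := abs_add_le e ((d - (1 - c) * dist x q) * G)
    have t4 : |(d - (1 - c) * dist x q) * G| ≤ 6 * c * d * (1 + g) := by
      rw [abs_mul]
      exact mul_le_mul hD2 hG1 (abs_nonneg _) (by positivity)
    have t5 : |d * (G - a)| ≤ d * g := by
      rw [abs_mul, abs_of_pos hdpos]
      exact mul_le_mul_of_nonneg_left hb hdpos.le
    linarith
  have h1 : |a - (dist p z - dist p x) / d| ≤
      (|e| + 6 * c * d * (1 + g) + d * g + 4 * c * d) / d := by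
    rw [le_div_iff₀ hdpos, mul_comm]
    exact habs
  refine h1.trans ?_
  have h2 : (|e| + 6 * c * d * (1 + g) + d * g + 4 * c * d) / d =
      (1 + 6 * c) * g + d⁻¹ * |e| + 10 * c := by
    field_simp
    ring
  rw [h2]
  have : (1 + 6 * c) * g ≤ 2 * g := mul_le_mul_of_nonneg_right (by linarith) hg0
  linarith

lemma tf_lip {μ : Measure M} (hc : Cal E μ) {u : M → ℝ} (hu : TF E u) :
    ∃ C : ℝ≥0, LipschitzWith C u := (lc_of_ll (hc.tfll u hu) hu.2).1

lemma gam_int {μ : Measure M} (hc : Cal E μ) {u v : M → ℝ} {C C' : ℝ≥0} (hu : LipschitzWith C u)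
    (hv : LipschitzWith C' v) {B : Set M} (hB : μ B < ⊤) : IntegrableOn (Gam E u v) B μ := by
  refine Measure.integrableOn_of_bounded (M := √((C : ℝ) ^ 2) * √((C' : ℝ) ^ 2)) hB.ne
    (hc.meas u v hu.continuous hv.continuous).aestronglyMeasurable
    (Eventually.of_forall fun p => ?_)
  rw [Real.norm_eq_abs]
  exact (abs_gam_le hc u v p).trans (mul_le_mul (Real.sqrt_le_sqrt (gam_le_of_lip hc hu p))
    (Real.sqrt_le_sqrt (gam_le_of_lip hc hv p)) (Real.sqrt_nonneg _) (Real.sqrt_nonneg _))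

lemma lt_top_of_subset {μ : Measure M} (hc : Cal E μ) {B : Set M} {y : M} {r : ℝ}
    (h : B ⊆ closedBall y r) : μ B < ⊤ :=
  (measure_mono h).trans_lt (hc.fin _ (isCompact_closedBall y r))

lemma cont_int {μ : Measure M} (hc : Cal E μ) {f : M → ℝ} (hf : Continuous f) {B : Set M} {y : M}
    {r : ℝ} (h : B ⊆ closedBall y r) : IntegrableOn f B μ := by
  have := hc.isFinOn
  exact (hf.continuousOn.integrableOn_compact (isCompact_closedBall y r)).mono_set h

/-- the integrated form of `slope_pt` -/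
lemma slope_int {μ : Measure M} (hc : Cal E μ) {u : M → ℝ} (hu : TF E u) (p x z : M) {s c : ℝ}
    (hc0 : 0 < c) (hc1 : c ≤ 1 / 16) (hs : 0 < s) (hsd : s ≤ c * dist x z) :
    ∫ q in ball z (4 * s), |Gam E (fun q => dist p q) (fun q => dist x q) q -
        (dist p z - dist p x) / dist x z| ∂μ ≤
      2 * ∫ q in ball z (4 * s), √(Gam E (fun q => u q - dist p q) (fun q => u q - dist p q) q) ∂μ
      + (dist x z)⁻¹ * (∫ q in ball z (4 * s),
        |(1 - c) * dist x q * Gam E u (fun q => dist x q) q - (dist p q - dist p x)| ∂μ)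
      + 10 * c * μ.real (ball z (4 * s)) := by
  obtain ⟨C, hC⟩ := tf_lip hc hu
  have hpl : LipschitzWith 1 (fun q : M => dist p q) := LipschitzWith.dist_right p
  have hxl : LipschitzWith 1 (fun q : M => dist x q) := LipschitzWith.dist_right x
  have hwl : LipschitzWith (C + 1) (fun q : M => u q - dist p q) := hC.sub hpl
  have hfin : μ (ball z (4 * s)) < ⊤ := lt_top_of_subset hc ball_subset_closedBall
  have i1 : IntegrableOn (fun q => √(Gam E (fun q => u q - dist p q)
      (fun q => u q - dist p q) q)) (ball z (4 * s)) μ := by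
    refine Measure.integrableOn_of_bounded (M := √(((C + 1 : ℝ≥0) : ℝ) ^ 2)) hfin.ne
      (hc.meas _ _ hwl.continuous hwl.continuous).sqrt.aestronglyMeasurable
      (Eventually.of_forall fun q => ?_)
    rw [Real.norm_eq_abs, abs_of_nonneg (Real.sqrt_nonneg _)]
    exact Real.sqrt_le_sqrt (gam_le_of_lip hc hwl q)
  have i2 : IntegrableOn (fun q => |(1 - c) * dist x q * Gam E u (fun q => dist x q) q -
      (dist p q - dist p x)|) (ball z (4 * s)) μ := by
    have j1 : IntegrableOn (fun q => (1 - c) * dist x q * Gam E u (fun q => dist x q) q)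
        (ball z (4 * s)) μ := by
      have j2 := (gam_int hc hC hxl hfin).bdd_mul (c := (1 - c) * (dist x z + 4 * s))
        (f := fun q => (1 - c) * dist x q)
        ((continuous_const.mul hxl.continuous).measurable.aestronglyMeasurable) ?_
      · exact j2
      · refine (ae_restrict_iff' measurableSet_ball).2 (Eventually.of_forall fun q hq => ?_)
        rw [Real.norm_eq_abs, abs_mul, abs_of_nonneg (by linarith : 0 ≤ 1 - c),
          abs_of_nonneg dist_nonneg]
        refine mul_le_mul_of_nonneg_left ?_ (by linarith)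
        have := dist_triangle x z q
        rw [dist_comm z q] at this
        linarith [mem_ball.1 hq]
    exact (j1.sub (cont_int hc ((hpl.continuous).sub continuous_const)
      ball_subset_closedBall)).abs
  have i3 : IntegrableOn (fun _ : M => 10 * c) (ball z (4 * s)) μ := integrableOn_const hfin.ne
  have hae : ∀ᵐ q ∂(μ.restrict (ball z (4 * s))),
      |Gam E (fun q => dist p q) (fun q => dist x q) q - (dist p z - dist p x) / dist x z| ≤
      (2 * √(Gam E (fun q => u q - dist p q) (fun q => u q - dist p q) q) +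
      (dist x z)⁻¹ * |(1 - c) * dist x q * Gam E u (fun q => dist x q) q -
        (dist p q - dist p x)|) + 10 * c := by
    rw [ae_restrict_iff' measurableSet_ball]
    filter_upwards [hc.diff u (hc.tfll u hu), hc.diff _ hpl.locallyLipschitz] with q h1 h2 hq
    exact slope_pt hc p x z hc0 hc1 hs hsd q (mem_ball.1 hq) h1 h2
  have h1 := integral_mono_of_nonneg (Eventually.of_forall fun q => abs_nonneg _)
    (((i1.const_mul 2).add (i2.const_mul (dist x z)⁻¹)).add i3) hae
  refine h1.trans (le_of_eq ?_)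
  have e1 := integral_add ((i1.const_mul 2).add (i2.const_mul (dist x z)⁻¹)) i3
  have e2 := integral_add (i1.const_mul 2) (i2.const_mul (dist x z)⁻¹)
  simp only [Pi.add_apply] at e1 e2 ⊢
  rw [e1, e2, integral_const_mul, integral_const_mul, setIntegral_const, smul_eq_mul]
  ring

lemma pole_mono {μ : Measure M} {K η η' : ℝ} {p y : M} {r : ℝ} (hr : 0 < r) (h : η ≤ η')
    (hP : Pole E μ K η p y r) : Pole E μ K η' p y r := by
  obtain ⟨h1, h2, h3⟩ := hP
  refine ⟨h1.trans (mul_le_mul_of_nonneg_right h dist_nonneg), h2.trans h, ?_⟩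
  intro w hw hw1 hw2
  refine (h3 w hw hw1 hw2).trans ?_
  gcongr

end Mfd

lemma exp_le_three {t : ℝ} (ht : t ≤ 1) : Real.exp t ≤ 3 := by
  have h1 := Real.exp_le_exp.2 ht
  have h2 := Real.exp_one_lt_three
  linarith

/-- the numerical core of `SLOPE` -/
lemma slope_num {n : ℕ} {c C1 C2 C3 V t r s d lam ex I1 I2 I3 mB eB gB tot : ℝ} (hc0 : 0 < c)
    (hsp : 0 < s) (ht0 : 0 < t) (hr : 0 < r) (hlam : 0 < lam) (hls : lam * r ≤ s)
    (hsc : s ≤ c * d) (_hC1 : 0 < C1) (hC2 : 0 < C2) (hC3 : 0 < C3) (hV0 : 0 ≤ V) (hdp : 0 < d)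
    (hd2 : d ≤ 2 * r) (hs2 : 8 * s ≤ r) (hs4 : 4 * s ≤ d) (hex : ex ≤ 3)
    (hm0 : 0 ≤ mB) (hI2 : 0 ≤ I2) (hI3 : 0 ≤ I3) (v1 : mB ≤ C1 * V)
    (htot : tot ≤ 2 * gB + d⁻¹ * eB + 10 * c * mB) (g1 : gB ≤ t / 2 * (C1 + C2) * V)
    (hseg : eB ≤ c * (d + 4 * s) * mB + I1 + c⁻¹ ^ n * ex * (I2 + (d + 4 * s) ^ 2 * I3))
    (s1 : I1 ≤ t * r * (C2 * V)) (s2 : I2 ≤ t * r * (C2 * V))
    (iH : I3 ≤ t / (2 * r) * (C3 + C2) * V) :
    tot ≤ (12 * c * C1 + t * ((C1 + C2) +
      c / lam * (C2 + c⁻¹ ^ n * 3 * (C2 + 9 / 2 * (C3 + C2))))) * V := by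
  obtain ⟨Lc, hLc⟩ : ∃ Lc, Lc = c⁻¹ ^ n * 3 := ⟨_, rfl⟩
  have hLcp : 0 < Lc := by rw [hLc]; positivity
  rw [← hLc]
  have hRr : (d + 4 * s) ^ 2 ≤ 9 * r ^ 2 := by
    have : (d + 4 * s) ^ 2 ≤ (3 * r) ^ 2 := pow_le_pow_left₀ (by positivity) (by linarith) 2
    calc _ ≤ (3 * r) ^ 2 := this
      _ = 9 * r ^ 2 := by ring
  have s3 : (d + 4 * s) ^ 2 * I3 ≤ 9 / 2 * r * t * (C3 + C2) * V := by
    have h2 : 0 ≤ t / (2 * r) * (C3 + C2) * V := by positivity
    calc _ ≤ (d + 4 * s) ^ 2 * (t / (2 * r) * (C3 + C2) * V) :=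
          mul_le_mul_of_nonneg_left iH (by positivity)
      _ ≤ 9 * r ^ 2 * (t / (2 * r) * (C3 + C2) * V) := mul_le_mul_of_nonneg_right hRr h2
      _ = _ := by field_simp
  have s4 : c⁻¹ ^ n * ex * (I2 + (d + 4 * s) ^ 2 * I3) ≤
      Lc * (t * r * (C2 * V) + 9 / 2 * r * t * (C3 + C2) * V) := by
    rw [hLc]
    refine mul_le_mul (mul_le_mul_of_nonneg_left hex (by positivity)) (by linarith) ?_
      (by positivity)
    exact add_nonneg hI2 (mul_nonneg (by positivity) hI3)
  have s5 : c * (d + 4 * s) * mB ≤ 2 * c * C1 * V * d := by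
    calc c * (d + 4 * s) * mB ≤ c * (d + d) * (C1 * V) :=
          mul_le_mul (mul_le_mul_of_nonneg_left (by linarith) hc0.le) v1 hm0 (by positivity)
      _ = _ := by ring
  have hrd : d⁻¹ * r ≤ c / lam := by
    rw [inv_mul_eq_div, div_le_div_iff₀ hdp hlam]
    linarith
  have s6 : d⁻¹ * eB ≤
      2 * c * C1 * V + c / lam * (t * (C2 + Lc * (C2 + 9 / 2 * (C3 + C2))) * V) := by
    have h2 : eB ≤ 2 * c * C1 * V * d + r * (t * (C2 + Lc * (C2 + 9 / 2 * (C3 + C2))) * V) := by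
      refine hseg.trans ?_
      calc _ ≤ 2 * c * C1 * V * d + t * r * (C2 * V) +
            Lc * (t * r * (C2 * V) + 9 / 2 * r * t * (C3 + C2) * V) :=
            add_le_add (add_le_add s5 s1) s4
        _ = _ := by ring
    calc _ ≤ d⁻¹ * (2 * c * C1 * V * d + r * (t * (C2 + Lc * (C2 + 9 / 2 * (C3 + C2))) * V)) :=
          mul_le_mul_of_nonneg_left h2 (by positivity)
      _ = 2 * c * C1 * V * (d⁻¹ * d) +
          (d⁻¹ * r) * (t * (C2 + Lc * (C2 + 9 / 2 * (C3 + C2))) * V) := by ring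
      _ ≤ _ := by
          rw [inv_mul_cancel₀ hdp.ne', mul_one]
          gcongr
  have s7 : 10 * c * mB ≤ 10 * c * (C1 * V) := mul_le_mul_of_nonneg_left v1 (by positivity)
  refine htot.trans ?_
  calc _ ≤ 2 * (t / 2 * (C1 + C2) * V) + (2 * c * C1 * V +
        c / lam * (t * (C2 + Lc * (C2 + 9 / 2 * (C3 + C2))) * V)) + 10 * c * (C1 * V) := by
        linarith
    _ = _ := by ring

section Mfd2

variable {E : Type} [NormedAddCommGroup E] [NormedSpace ℝ E] [FiniteDimensional ℝ E]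
  [MeasurableSpace E] [BorelSpace E]
  {M : Type} [MetricSpace M] [ChartedSpace E M]
  [RiemannianBundle (fun x : M => TangentSpace 𝓘(ℝ, E) x)]
  [MeasurableSpace M] [BorelSpace M] [ProperSpace M]

lemma int_grad {μ : Measure M} (hcal : Cal E μ) {v : M → ℝ} {C : ℝ≥0} (hv : LipschitzWith C v)
    {B D : Set M} (hBD : B ⊆ D) (hD : μ D < ⊤) {t m1 m2 : ℝ} (ht0 : 0 < t)
    (h1 : μ.real B ≤ m1) (h2 : ∫ q in D, Gam E v v q ∂μ ≤ t ^ 2 * m2) :
    ∫ q in B, √(Gam E v v q) ∂μ ≤ t / 2 * (m1 + m2) := by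
  have hfin : μ B < ⊤ := (measure_mono hBD).trans_lt hD
  refine (int_sqrt_le μ _ _ (hcal.nonneg _) (gam_int hcal hv hv hfin) hfin ht0).trans ?_
  have h3 : ∫ q in B, Gam E v v q ∂μ ≤ t ^ 2 * m2 :=
    (setIntegral_mono_set (gam_int hcal hv hv hD)
      (Eventually.of_forall (hcal.nonneg _)) hBD.eventuallyLE).trans h2
  have h4 : (∫ q in B, Gam E v v q ∂μ) / (2 * t) ≤ t ^ 2 * m2 / (2 * t) := by gcongr
  have h5 : t ^ 2 * m2 / (2 * t) = t / 2 * m2 := by field_simp
  have h6 : t / 2 * μ.real B ≤ t / 2 * m1 := mul_le_mul_of_nonneg_left h1 (by positivity)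
  linarith

lemma int_hess {μ : Measure M} (hcal : Cal E μ) {f : M → ℝ} (hf : Continuous f)
    (hf0 : ∀ q, 0 ≤ f q) {B D : Set M} (hBD : B ⊆ D) {y : M} {a : ℝ} (hDy : D ⊆ closedBall y a)
    {t r m1 m2 : ℝ} (ht0 : 0 < t) (hr : 0 < r)
    (h1 : μ.real D ≤ m1) (h2 : r ^ 2 * ∫ q in D, f q ∂μ ≤ t ^ 2 * m2) :
    ∫ q in B, √(f q) ∂μ ≤ t / (2 * r) * (m1 + m2) := by
  have hD : μ D < ⊤ := lt_top_of_subset hcal hDy
  refine (setIntegral_mono_set (cont_int hcal (Real.continuous_sqrt.comp hf) hDy)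
    (Eventually.of_forall fun q => Real.sqrt_nonneg _) hBD.eventuallyLE).trans ?_
  refine (int_sqrt_le μ _ _ hf0 (cont_int hcal hf hDy) hD (t := t / r) (by positivity)).trans ?_
  have h3 : ∫ q in D, f q ∂μ ≤ t ^ 2 * m2 / r ^ 2 := by
    rw [le_div_iff₀ (by positivity), mul_comm]
    exact h2
  have h4 : (∫ q in D, f q ∂μ) / (2 * (t / r)) ≤ t ^ 2 * m2 / r ^ 2 / (2 * (t / r)) := by gcongr
  have h5 : t ^ 2 * m2 / r ^ 2 / (2 * (t / r)) = t / (2 * r) * m2 := by field_simp
  have h6 : t / r / 2 * μ.real D ≤ t / r / 2 * m1 :=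
    mul_le_mul_of_nonneg_left h1 (by positivity)
  have h7 : t / r / 2 * m1 = t / (2 * r) * m1 := by field_simp
  linarith

end Mfd2

theorem slope (hA : Stmt.CALA) (hB : Stmt.CALB) (hC : Stmt.CALC) (hD : Stmt.CALD) (hBG : Stmt.BG)
    (hAN : Stmt.AN) (hSEG : Stmt.SEG) : Stmt.SLOPE := by
  intro n hn Ψ hΨ
  obtain ⟨C1, hC1⟩ : ∃ C1 : ℝ, C1 = 3 * 4 ^ n := ⟨_, rfl⟩
  have hC1p : 0 < C1 := by rw [hC1]; positivity
  obtain ⟨c, hc0, hc1, hcC⟩ : ∃ c > 0, c ≤ 1 / 16 ∧ 12 * c * C1 ≤ Ψ / 2 := by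
    refine ⟨min (1 / 16) (Ψ / (24 * C1)), lt_min (by norm_num) (by positivity),
      min_le_left _ _, ?_⟩
    have : min (1 / 16) (Ψ / (24 * C1)) ≤ Ψ / (24 * C1) := min_le_right _ _
    rw [le_div_iff₀ (by positivity)] at this
    linarith
  refine ⟨c, hc0, fun lam hlam => ?_⟩
  obtain ⟨C2, hC2⟩ : ∃ C2 : ℝ, C2 = 3 * (2 / lam) ^ n := ⟨_, rfl⟩
  obtain ⟨C3, hC3⟩ : ∃ C3 : ℝ, C3 = 3 * (5 / lam) ^ n := ⟨_, rfl⟩
  have hC2p : 0 < C2 := by rw [hC2]; positivity
  have hC3p : 0 < C3 := by rw [hC3]; positivity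
  have hXp : 0 ≤ (C1 + C2) + c / lam * (C2 + c⁻¹ ^ n * 3 * (C2 + 9 / 2 * (C3 + C2))) := by
    positivity
  obtain ⟨t, ht0, ht1, htX⟩ := exists_small (half_pos hΨ) hXp
  obtain ⟨η0, hη0, hAN'⟩ := hAN n hn (t ^ 2) (by positivity)
  refine ⟨min η0 (1 / 25), lt_min hη0 (by norm_num), ?_⟩
  intro E _ _ _ _ _ M _ _ _ _ _ _ _ _ _ h1 hfr μ K hμ hK hRic p y x z r s hr hKr hPole hxy hzy
    hls hsc
  have hcal : Cal E μ := cal_of hA hB hD h1 hμ
  have hsp : 0 < s := lt_of_lt_of_le (by positivity) hls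
  have hdp : 0 < dist x z := by
    by_contra h
    push Not at h
    have : c * dist x z ≤ 0 := mul_nonpos_of_nonneg_of_nonpos hc0.le h
    linarith
  have hd2 : dist x z ≤ 2 * r := by
    have := dist_triangle_right x z y
    linarith
  have hs2 : 8 * s ≤ r := by
    have : c * dist x z ≤ 1 / 16 * (2 * r) := mul_le_mul hc1 hd2 hdp.le (by norm_num)
    linarith
  have hs4 : 4 * s ≤ dist x z := by
    have : c * dist x z ≤ 1 / 16 * dist x z := mul_le_mul_of_nonneg_right hc1 hdp.le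
    linarith
  -- volumes
  obtain ⟨V, hV⟩ : ∃ V, V = μ.real (ball z s) := ⟨_, rfl⟩
  have hV0 : 0 ≤ V := by rw [hV]; exact measureReal_nonneg
  have hKr25 : K * r ^ 2 ≤ 1 / 25 := hKr.trans (min_le_right _ _)
  have hbg := hBG n hn E M h1 hfr μ K hμ hK hRic z s
  have hKexp : ∀ a : ℝ, 0 ≤ a → a ≤ 5 * r → Real.exp (K * a ^ 2) ≤ 3 := by
    intro a ha0 ha
    refine exp_le_three ?_
    have : a ^ 2 ≤ (5 * r) ^ 2 := pow_le_pow_left₀ ha0 ha 2
    calc K * a ^ 2 ≤ K * (5 * r) ^ 2 := mul_le_mul_of_nonneg_left this hK.le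
      _ = 25 * (K * r ^ 2) := by ring
      _ ≤ 1 := by linarith
  have hrs : r / s ≤ 1 / lam := by
    rw [div_le_div_iff₀ hsp hlam]
    linarith
  have hvol : ∀ a b : ℝ, 0 ≤ b → s ≤ a → a ≤ 5 * r → a / s ≤ b →
      μ.real (ball z a) ≤ 3 * b ^ n * V := by
    intro a b hb h2 h3 h4
    refine (hbg a hsp h2).trans ?_
    rw [← hV]
    have ha0 : 0 ≤ a := hsp.le.trans h2
    have e1 := hKexp a ha0 h3
    have e2 : (a / s) ^ n ≤ b ^ n := pow_le_pow_left₀ (by positivity) h4 n
    have e3 : (a / s) ^ n * Real.exp (K * a ^ 2) ≤ b ^ n * 3 :=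
      mul_le_mul e2 e1 (Real.exp_pos _).le (by positivity)
    calc (a / s) ^ n * Real.exp (K * a ^ 2) * V ≤ b ^ n * 3 * V :=
          mul_le_mul_of_nonneg_right e3 hV0
      _ = 3 * b ^ n * V := by ring
  have hmono : ∀ (y' : M) (a b : ℝ), dist y' z + a ≤ b →
      μ.real (ball y' a) ≤ μ.real (ball z b) := by
    intro y' a b h
    refine measureReal_mono (ball_subset_ball' ?_) ?_
    · linarith
    · exact (lt_top_of_subset hcal ball_subset_closedBall).ne
  have hyz : dist y z ≤ r := by rwa [dist_comm]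
  have v1 : μ.real (ball z (4 * s)) ≤ C1 * V := by
    rw [hC1]
    refine hvol _ 4 (by norm_num) (by linarith) (by linarith) ?_
    rw [mul_div_assoc, div_self hsp.ne', mul_one]
  have v2 : μ.real (ball y r) ≤ C2 * V := by
    rw [hC2]
    refine (hmono y r (2 * r) (by linarith)).trans ?_
    refine hvol _ _ (by positivity) (by linarith) (by linarith) ?_
    rw [mul_div_assoc]
    calc 2 * (r / s) ≤ 2 * (1 / lam) := by linarith
      _ = 2 / lam := by ring
  have v3 : μ.real (ball y (4 * r)) ≤ C3 * V := by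
    rw [hC3]
    refine (hmono y (4 * r) (5 * r) (by linarith)).trans ?_
    refine hvol _ _ (by positivity) (by linarith) (by linarith) ?_
    rw [mul_div_assoc]
    calc 5 * (r / s) ≤ 5 * (1 / lam) := by linarith
      _ = 5 / lam := by ring
  obtain ⟨u, hu, hu1, hu2, hu3⟩ := hAN' E M h1 hfr μ K hμ hK hRic p y r hr
    (hKr.trans (min_le_left _ _)) (pole_mono hr (min_le_left _ _) hPole)
  obtain ⟨Cu, hCu⟩ := tf_lip hcal hu
  have hpl : LipschitzWith 1 (fun q : M => dist p q) := LipschitzWith.dist_right p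
  have hwl : LipschitzWith (Cu + 1) (fun q : M => u q - dist p q) := hCu.sub hpl
  have hHS := (hC E M h1).2.2.1 0 u hu
  -- the ball around `z` is inside
  have hsub1 : ball z (4 * s) ⊆ ball y (4 * r) := ball_subset_ball' (by linarith)
  have hsub2 : closedBall x (dist x z + 4 * s) ⊆ ball y (4 * r) := by
    intro q hq
    have h2 := dist_triangle q x y
    rw [mem_closedBall] at hq
    rw [mem_ball]
    linarith
  have hsub3 : ball z (4 * s) ⊆ closedBall x (dist x z + 4 * s) := by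
    intro q hq
    have h2 := dist_triangle q z x
    rw [mem_ball] at hq
    rw [mem_closedBall]
    rw [dist_comm z x] at h2
    linarith
  have hfinD : μ (ball y (4 * r)) < ⊤ := lt_top_of_subset hcal ball_subset_closedBall
  -- integral of `|u - dist p|`
  have iu : ∀ B : Set M, B ⊆ ball y (4 * r) → ∫ q in B, |u q - dist p q| ∂μ ≤
      t * r * (C2 * V) := by
    intro B hBs
    refine (setIntegral_mono_set (cont_int hcal (hwl.continuous).abs ball_subset_closedBall)
      (Eventually.of_forall fun q => abs_nonneg _) hBs.eventuallyLE).trans (hu1.trans ?_)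
    have : t ^ 2 ≤ t := by nlinarith
    calc t ^ 2 * r * μ.real (ball y r) ≤ t ^ 2 * r * (C2 * V) :=
          mul_le_mul_of_nonneg_left v2 (by positivity)
      _ ≤ t * r * (C2 * V) := by gcongr
  have g1 := int_grad hcal hwl hsub1 hfinD ht0 v1
    (hu2.trans (mul_le_mul_of_nonneg_left v2 (by positivity)))
  have iH := int_hess hcal hHS.1 hHS.2 hsub2 ball_subset_closedBall ht0 hr v3
    (hu3.trans (mul_le_mul_of_nonneg_left v2 (by positivity)))
  have hseg := hSEG n hn E M h1 hfr μ K hμ hK hRic x (dist x z + 4 * s) c u (fun q => dist p q)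
    (ball z (4 * s)) (by positivity) hc0 (by linarith) hu hpl measurableSet_ball hsub3
  have hfinal := slope_int hcal hu p x z hc0 hc1 hsp hsc
  unfold GrN
  refine (slope_num (lam := lam) (C3 := C3) (V := V) hc0 hsp ht0 hr hlam hls hsc hC1p hC2p hC3p
    hV0 hdp hd2 hs2
    hs4 (hKexp (dist x z + 4 * s) (by positivity) (by linarith)) measureReal_nonneg
    (integral_nonneg fun q => abs_nonneg _) (integral_nonneg fun q => Real.sqrt_nonneg _) v1
    hfinal (g1.trans (le_of_eq (by ring))) hseg (iu _ hsub1) (iu _ hsub2)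
    (iH.trans (le_of_eq (by ring)))).trans ?_
  rw [← hV]
  exact mul_le_mul_of_nonneg_right (by linarith) hV0

end Vale.Agent.P210.R2.H546
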