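import Vale.Agent.P210.R2.H546.StepSpec

open Set Metric
open Vale.Agent.P210.R2.H53 (HCge)
open Vale.Agent.P210.R2.H401

namespace Vale.Agent.P210.R2.H546

theorem hc_mono {X : Type} [MetricSpace X] {n : ℕ} {ρ : ℝ} {A B : Set X} {a a' : ℝ}
    (h : HCge n ρ A a) (hA : A ⊆ B) (ha : a' ≤ a) : HCge n ρ B a' :=
  fun S hS hB => ha.trans (h S hS (hA.trans hB))

theorem hc_union {X : Type} [MetricSpace X] {n : ℕ} {ρ : ℝ} {A B C : Set X} {a b : ℝ}
    (hρ : 0 ≤ ρ) (hC : C ⊆ A ∪ B) (hA : ¬ HCge n ρ A a) (hB : ¬ HCge n ρ B b) :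
    ¬ HCge n ρ C (a + b) := by
  unfold HCge at hA hB
  push Not at hA hB
  obtain ⟨S, hS, hSA, hSs⟩ := hA
  obtain ⟨T, hT, hTB, hTs⟩ := hB
  intro h
  classical
  have h1 := h (S ∪ T) (fun c hc => by
    rcases Finset.mem_union.1 hc with hc | hc
    · exact hS c hc
    · exact hT c hc) (fun z hz => by
      rcases hC hz with hz | hz
      · obtain ⟨c, hc, hzc⟩ := mem_iUnion₂.1 (hSA hz)
        exact mem_iUnion₂.2 ⟨c, Finset.mem_union_left _ hc, hzc⟩
      · obtain ⟨c, hc, hzc⟩ := mem_iUnion₂.1 (hTB hz)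
        exact mem_iUnion₂.2 ⟨c, Finset.mem_union_right _ hc, hzc⟩)
  have h2 : ∑ c ∈ S ∪ T, c.2 ^ (n - 1) ≤ ∑ c ∈ S, c.2 ^ (n - 1) + ∑ c ∈ T, c.2 ^ (n - 1) := by
    rw [← Finset.sum_union_inter]
    have : 0 ≤ ∑ c ∈ S ∩ T, c.2 ^ (n - 1) := Finset.sum_nonneg fun c hc =>
      pow_nonneg (hρ.trans (hS c (Finset.mem_inter.1 hc).1)) _
    linarith
  linarith

theorem st_mono {n j b : ℕ} {η η' : ℝ} {S : Sp} (hax : Ax n S) (h : St n j b η S)
    (hη : η ≤ η') : St n j b η' S := by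
  obtain ⟨y, t, A, p, h1, h2, h3, h4, h5, h6⟩ := h
  have ht : 0 < t := lt_of_lt_of_le (by positivity) h1
  obtain ⟨-, g2, g3, g4⟩ := data_mono hax (p := p) ⟨ht, h2, h5, h6⟩ hη
  exact ⟨y, t, A, p, h1, g2, h3, h4, g3, g4⟩

theorem step_of (hdens : Stmt.DENS) (hcov : Stmt.COVER) (hpair : Stmt.PAIR) (hNB : NB)
    (hCON : CON) : Stmt.STEP := by
  rintro n C hn hI j hj ⟨b₁, η₁, hη₁, hno⟩
  have hn0 : (2 : ℝ) ≤ n := by exact_mod_cast hn
  obtain ⟨b', η', hb', hη', hη'1, hno⟩ : ∃ (b' : ℕ) (η' : ℝ), 1 ≤ b' ∧ 0 < η' ∧ η' ≤ 1 ∧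
      ∀ S, C S → ¬ St n (j + 1) b' η' S :=
    ⟨b₁ + 1, min η₁ 1, by omega, lt_min hη₁ one_pos, min_le_right _ _,
      fun S hS h => hno S hS (st_mono (hI.ax S hS) (st_b h) (min_le_left _ _))⟩
  have hF := fini hdens hcov hn hI hb' hη' hη'1 hno
  obtain ⟨g, hg, hg1, hpair⟩ := hpair n j hj (1 / 2 ^ n) (by positivity) (1 / (32 * n))
    (by positivity)
  set g₁ : ℝ := g / (128 * n) with hg₁
  have hg₁0 : 0 < g₁ := by positivity
  obtain ⟨N₁, hN₁, hcov⟩ := hcov n (4 / g₁)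
  obtain ⟨c₂, hc₂, hpair⟩ := hpair N₁
  obtain ⟨L, hL, M₀, hNB⟩ := hNB n C hn hI j b' η' hb' hη' hη'1 hF g hg hg1 (c₂ / 2)
    (by positivity)
  obtain ⟨a, hCON⟩ := hCON n C hn hI j b' η' hj hb' hη' hη'1 hF (c₂ / 2) (by positivity) L hL
  obtain ⟨N, hN, b₂, η₂, hη₂, hCON⟩ := hCON M₀
  obtain ⟨b₃, η₃, hη₃, hNB⟩ := hNB (N + a) hN
  obtain ⟨b₄, hb₄⟩ := pow_unbounded_of_one_lt (1 / g) one_lt_two
  refine ⟨max b₂ (max b₃ b₄), min η₂ (min η₃ 1), lt_min hη₂ (lt_min hη₃ one_pos),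
    fun S hS => ?_⟩
  set b := max b₂ (max b₃ b₄) with hb
  have hb2 : b₂ ≤ b := le_max_left _ _
  have hb3 : b₃ ≤ b := (le_max_left _ _).trans (le_max_right _ _)
  have hb4 : b₄ ≤ b := (le_max_right _ _).trans (le_max_right _ _)
  rintro ⟨y, t, A, p, h1, h2, h3, h4, h5, h6⟩
  have hax := hI.ax S hS
  have ht : 0 < t := lt_of_lt_of_le (by positivity) h1
  have hd : Data n j (min η₂ (min η₃ 1)) S y t p := ⟨ht, h2, h5, h6⟩
  have hK1 : S.K * (2 * t) ^ 2 ≤ 1 := h2.trans ((min_le_right _ _).trans (min_le_right _ _))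
  have hρ : t / 2 ^ b ≤ g * t := by
    rw [div_le_iff₀ (by positivity)]
    have : 1 / g ≤ 2 ^ b := hb₄.le.trans (pow_le_pow_right₀ one_le_two hb4)
    rw [div_le_iff₀ hg] at this
    nlinarith
  obtain ⟨x, hxA, z₀, hz₀, hHC, hxz, hh⟩ := hpair S.X A y t (t / 2 ^ b) g₁
    (fun i q => dist (p i) q) ht (by positivity) hρ hg₁0 h3
    (by rw [one_div, inv_mul_eq_div]; exact h4)
    ((hcov S hax y (g₁ * t / 2) (2 * t) (by positivity) (by
        have : g₁ ≤ 1 := by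
          rw [hg₁, div_le_one (by positivity)]; linarith
        nlinarith) (by
        rw [div_mul_eq_mul_div, le_div_iff₀ hg₁0]
        apply le_of_eq; ring) hK1).2 A h3)
    (fun i => LipschitzWith.dist_right _)
  have hz1 : ∀ z ∈ A ∩ closedBall z₀ (g₁ * t), dist z z₀ ≤ g₁ * t := fun z hz => hz.2
  have hg₁' : g₁ * (128 * n) = g := by rw [hg₁]; field_simp
  have G1 : ∀ z ∈ A ∩ closedBall z₀ (g₁ * t), g / 2 * t ≤ dist x z := by
    intro z hz
    have a1 := hz1 z hz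
    have a2 := dist_triangle x z z₀
    have a3 : g₁ ≤ g / 2 := by nlinarith
    nlinarith
  have G2 : ∀ z ∈ A ∩ closedBall z₀ (g₁ * t), ∀ i,
      |dist (p i) z - dist (p i) x| ≤ dist x z / (16 * n) := by
    intro z hz i
    have a1 := hz1 z hz
    have a2 := dist_triangle x z z₀
    have a3 := hh i
    have a4 := abs_dist_sub_le z z₀ (p i)
    rw [dist_comm z (p i), dist_comm z₀ (p i)] at a4
    have a5 : |dist (p i) z - dist (p i) x| ≤ 1 / (32 * n) * dist x z₀ + dist z z₀ := by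
      calc |dist (p i) z - dist (p i) x|
          = |(dist (p i) z - dist (p i) z₀) - (dist (p i) x - dist (p i) z₀)| := by
            congr 1; ring
        _ ≤ |dist (p i) z - dist (p i) z₀| + |dist (p i) x - dist (p i) z₀| := abs_sub _ _
        _ ≤ _ := by linarith
    have a6 := G1 z hz
    have a7 : 1 / (32 * (n : ℝ)) * dist x z₀ ≤ 1 / (32 * n) * dist x z + dist z z₀ := by
      have : 1 / (32 * (n : ℝ)) ≤ 1 := by
        rw [div_le_one (by positivity)]; linarith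
      have h0 : 0 ≤ 1 / (32 * (n : ℝ)) := by positivity
      have := @dist_nonneg _ _ z z₀
      nlinarith
    have a8 : 2 * (g₁ * t) ≤ 1 / (32 * n) * dist x z := by
      have : 2 * (g₁ * t) = 1 / (32 * n) * (g / 2 * t) := by
        rw [← hg₁']; field_simp; ring
      rw [this]
      gcongr
    calc |dist (p i) z - dist (p i) x| ≤ 1 / (32 * n) * dist x z + 1 / (32 * n) * dist x z := by
          linarith
      _ = dist x z / (16 * n) := by field_simp; ring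
  set P := A ∩ closedBall z₀ (g₁ * t) with hP
  have hPy : P ⊆ closedBall y (2 * t) := inter_subset_left.trans h3
  have n1 := hNB S hS y x t p {z ∈ P | L * ((1 / 2) ^ (N + a)) ^ n * S.V z (2 * t) <
    S.V z (2 * t / 2 ^ (N + a))} b hb3 h1
    (data_mono hax hd ((min_le_right _ _).trans (min_le_left _ _))) (h3 hxA)
    ((sep_subset _ _).trans hPy) (fun z hz => G1 z hz.1) (fun z hz => G2 z hz.1)
    (fun z hz => hz.2)
  have n2 := hCON S hS y t p {z ∈ P | S.V z (2 * t / 2 ^ (N + a)) ≤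
    L * ((1 / 2) ^ (N + a)) ^ n * S.V z (2 * t)} b hb2 h1
    (data_mono hax hd (min_le_left _ _)) ((sep_subset _ _).trans hPy) (fun z hz => hz.2)
  refine hc_union (by positivity) (fun z hz => ?_) n1 n2 (hc_mono hHC Subset.rfl (le_of_eq ?_))
  · rcases lt_or_ge (L * ((1 / 2) ^ (N + a)) ^ n * S.V z (2 * t))
      (S.V z (2 * t / 2 ^ (N + a))) with hz' | hz'
    · exact Or.inl ⟨hz, hz'⟩
    · exact Or.inr ⟨hz, hz'⟩
  · ring

end Vale.Agent.P210.R2.H546
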