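import Vale.Agent.P210.R2.H546.Abs

open Set Metric
open Vale.Agent.P210.R2.H53 (HCge)
open Vale.Agent.P210.R2.H401

namespace Vale.Agent.P210.R2.H546

section

variable {n : ℕ} {S : Sp} (hax : Ax n S)
include hax

theorem pl_mono {η η' : ℝ} {p y : S.X} {r : ℝ} (hr : 0 < r) (h : PL S η p y r)
    (hη : η ≤ η') : PL S η' p y r := by
  obtain ⟨h1, h2, h3⟩ := h
  have := hax.pos y r hr
  refine ⟨h1.trans (mul_le_mul_of_nonneg_right hη dist_nonneg), h2.trans hη, ?_⟩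
  refine hax.lm _ _ _ _ _ _ _ ?_ ?_ h3
  · rw [dist_self]; linarith
  · gcongr

theorem vol_le {y w : S.X} {r s lam : ℝ} (hr : 0 < r) (hs : 0 < s) (hd : dist w y ≤ r)
    (hsr : s ≤ r) (hlam : 0 < lam) (h : lam * r ≤ s) (hK : S.K * r ^ 2 ≤ 1) :
    S.V y r ≤ (2 / lam) ^ n * Real.exp 4 * S.V w s := by
  have h1 : S.V y r ≤ S.V w (2 * r) := hax.sub _ _ _ _ (by rw [dist_comm]; linarith)
  have h2 := hax.bg w s (2 * r) hs (by linarith)
  have h3 : 2 * r / s ≤ 2 / lam := by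
    rw [div_le_div_iff₀ hs hlam]; nlinarith
  have h4 : S.K * (2 * r) ^ 2 ≤ 4 := by nlinarith
  have h5 := hax.pos w s hs
  calc S.V y r ≤ (2 * r / s) ^ n * Real.exp (S.K * (2 * r) ^ 2) * S.V w s := h1.trans h2
    _ ≤ _ := by gcongr

theorem v_pass {y w : S.X} {r s lam η η' : ℝ} (hr : 0 < r) (hs : 0 < s)
    (hd : dist w y ≤ r)
    (hsr : s ≤ r) (hlam : 0 < lam) (h : lam * r ≤ s) (hK : S.K * r ^ 2 ≤ 1) (hη0 : 0 ≤ η)
    (hη : η * ((2 / lam) ^ n * Real.exp 4) ≤ η') : η * S.V y r ≤ η' * S.V w s := by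
  have h1 := vol_le hax hr hs hd hsr hlam h hK
  have h5 := hax.pos w s hs
  calc η * S.V y r ≤ η * ((2 / lam) ^ n * Real.exp 4 * S.V w s) := by gcongr
    _ = η * ((2 / lam) ^ n * Real.exp 4) * S.V w s := by ring
    _ ≤ _ := by gcongr

theorem pl_pass {p y w : S.X} {r s lam η η' : ℝ} (hr : 0 < r) (hs : 0 < s)
    (hd : dist w y ≤ r) (hsr : s ≤ r / 2) (hlam : 0 < lam) (h : lam * r ≤ s)
    (hK : S.K * r ^ 2 ≤ 1) (hη0 : 0 ≤ η) (hη : η * ((2 / lam) ^ n * Real.exp 4) ≤ η')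
    (h4 : 4 * η ≤ η') (h1 : η' ≤ 1) (hp : PL S η p y r) : PL S η' p w s := by
  obtain ⟨a1, a2, a3⟩ := hp
  have b1 := dist_triangle p w y
  have b2 := dist_triangle_right p w y
  have b3 : 0 ≤ dist p y := dist_nonneg
  have hK0 := hax.Kpos
  have b4 : dist p w ≤ 2 * dist p y := by
    have : η * dist p y ≤ 1 * dist p y := by
      apply mul_le_mul_of_nonneg_right _ b3; linarith
    have := dist_triangle p y w
    rw [dist_comm y w] at this
    linarith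
  refine ⟨?_, ?_, ?_⟩
  · have b5 : 4 * (η * dist p y) ≤ η' * dist p y := by nlinarith
    have b6 : η' * dist w y ≤ 1 * r := by
      have : 0 ≤ η' := by linarith
      gcongr
    have b7 : η' * dist p y ≤ η' * (dist p w + dist w y) := by
      have : 0 ≤ η' := by linarith
      gcongr
    nlinarith
  · calc S.K * s * dist p w ≤ S.K * (r / 2) * (2 * dist p y) := by gcongr
      _ = S.K * r * dist p y := by ring
      _ ≤ η' := by linarith
  · refine hax.lm _ _ _ _ _ _ _ ?_ ?_ a3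
    · linarith
    · have := v_pass hax hr hs hd (by linarith) hlam h hK hη0 hη
      have hv := hax.pos w s hs
      have : 0 ≤ η' := by linarith
      gcongr
      linarith

theorem gn_pass {p p' y w : S.X} {r s lam η η' σ : ℝ} (hr : 0 < r) (hs : 0 < s)
    (hd : dist w y ≤ r) (hsr : s ≤ r / 2) (hlam : 0 < lam) (h : lam * r ≤ s)
    (hK : S.K * r ^ 2 ≤ 1) (hη0 : 0 ≤ η) (hη : η * ((2 / lam) ^ n * Real.exp 4) ≤ η')
    (hp : S.GN p p' y (4 * r) σ (η * S.V y r)) : S.GN p p' w (4 * s) σ (η' * S.V w s) :=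
  hax.gn _ _ _ _ _ _ _ _ _ (by linarith)
    (v_pass hax hr hs hd (by linarith) hlam h hK hη0 hη) hp

end

/-- common end of two cases of the induction step -/
def Fini (n : ℕ) (C : Sp → Prop) (j b' : ℕ) (η' : ℝ) : Prop :=
  ∃ c > 0, ∀ (N₀ : ℕ) (ε : ℝ), 0 < ε → ∃ N : ℕ, ∀ lam > 0, ∃ η > 0, ∀ S, C S →
  ∀ (y x : S.X) (t t₀ ρ : ℝ) (p : Fin j → S.X) (P : Set S.X), 0 < t →
  S.K * (2 * t) ^ 2 ≤ η → (∀ i, PL S η (p i) y (2 * t)) →
  (∀ i k, i < k → ∃ σ : ℝ, |σ| ≤ 1 / (16 * n) ∧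
    S.GN (p i) (p k) y (8 * t) σ (η * S.V y (2 * t))) →
  dist x y ≤ 2 * t → P ⊆ closedBall y (2 * t) → 2 * t₀ ≤ t → lam * (2 * t) ≤ t₀ / 2 ^ N →
  2 ^ b' ≤ t₀ / 2 ^ N → (∀ z ∈ P, 2 * t₀ ≤ c * dist x z) →
  (∀ z ∈ P, ∀ i, |dist (p i) z - dist (p i) x| ≤ dist x z / (16 * n)) →
  (∀ z ∈ P, ∀ s, t₀ / 2 ^ N ≤ s → s ≤ 2 * t₀ → PL S η' x z s) →
  (∃ F : Finset S.X, F.card ≤ N₀ ∧ P ⊆ ⋃ c ∈ F, closedBall c t₀) → 0 < ρ →
  ρ ≤ t₀ / 2 ^ (N + b') → HCge n ρ P (ε * t₀ ^ (n - 1)) → False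

theorem fini (hdens : Stmt.DENS) (hcov : Stmt.COVER) {n : ℕ} {C : Sp → Prop} (hn : 2 ≤ n)
    (hI : Inp n C) {j b' : ℕ} {η' : ℝ} (hb' : 1 ≤ b') (hη' : 0 < η') (hη1 : η' ≤ 1)
    (hno : ∀ S, C S → ¬ St n (j + 1) b' η' S) : Fini n C j b' η' := by
  obtain ⟨c, hc, hsl⟩ := hI.slope η' hη'
  refine ⟨c, hc, fun N₀ ε hε => ?_⟩
  have hbR : (1 : ℝ) ≤ b' := by exact_mod_cast hb'
  have hq1 : 1 - 1 / (2 * (b' : ℝ)) < 1 := by
    have : 0 < 1 / (2 * (b' : ℝ)) := by positivity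
    linarith
  obtain ⟨N, hN⟩ := exists_pow_lt_of_lt_one
    (show 0 < ε / (((N₀ : ℝ) + 1) * 2 ^ n) by positivity) hq1
  refine ⟨N, fun lam hlam => ?_⟩
  obtain ⟨ηs, hηs, hsl⟩ := hsl lam hlam
  obtain ⟨D, hD, hcov⟩ := hcov n 4
  set Q : ℝ := (2 / lam) ^ n * Real.exp 4 with hQ
  have hQ0 : 0 < Q := by positivity
  refine ⟨min ηs (min (η' / 4) (η' / Q)), lt_min hηs (lt_min (by positivity) (by positivity)),
    fun S hS y x t t₀ ρ p P ht hK hp hg hx hP ht₀ hlt hbt hc' hh hpl hF hρ hρ' hHC => ?_⟩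
  set η : ℝ := min ηs (min (η' / 4) (η' / Q)) with hη
  have hη0 : 0 < η := lt_min hηs (lt_min (by positivity) (by positivity))
  have e1 : η ≤ ηs := min_le_left _ _
  have e2 : 4 * η ≤ η' := by
    have : η ≤ η' / 4 := (min_le_right _ _).trans (min_le_left _ _)
    linarith
  have e3 : η * Q ≤ η' := by
    have : η ≤ η' / Q := (min_le_right _ _).trans (min_le_right _ _)
    rwa [le_div_iff₀ hQ0] at this
  have hax := hI.ax S hS
  have hK1 : S.K * (2 * t) ^ 2 ≤ 1 := by linarith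
  have hpos : 0 < t₀ / 2 ^ N := lt_of_lt_of_le (by positivity) hbt
  have ht₀0 : 0 < t₀ := by
    by_contra hn
    have : t₀ / 2 ^ N ≤ 0 := div_nonpos_of_nonpos_of_nonneg (not_lt.1 hn) (by positivity)
    linarith
  have hle : ∀ k : ℕ, t₀ / 2 ^ k ≤ t₀ := fun k =>
    div_le_self ht₀0.le (one_le_pow₀ one_le_two)
  have hKt : ∀ s, 0 ≤ s → s ≤ t → S.K * (2 * s) ^ 2 ≤ η := fun s h0 h1 => by
    have : (2 * s) ^ 2 ≤ (2 * t) ^ 2 := by gcongr
    exact (mul_le_mul_of_nonneg_left this hax.Kpos.le).trans hK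
  obtain ⟨F, hF1, hF2⟩ := hF
  obtain ⟨k, hk, -, w, hw, hHC'⟩ := hdens S.X n b' D N N₀ 0 ρ t₀ ε P ∅ hn hb' hD ht₀0
    hρ hρ' (by simp) (fun k hk w => by
      have hp : 0 < t₀ / 2 ^ k := by positivity
      have e : t₀ / 2 ^ (k + 1) = (t₀ / 2 ^ k) / 2 := by rw [pow_succ]; field_simp
      have hk' := hle k
      obtain ⟨F, hF, hF'⟩ := (hcov S hax w (t₀ / 2 ^ (k + 1)) (2 * (t₀ / 2 ^ k)) (by positivity)
        (by rw [e]; linarith) (by rw [e]; linarith)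
        ((hKt _ hp.le (by linarith)).trans (by linarith))).2
        (P ∩ closedBall w (2 * (t₀ / 2 ^ k))) inter_subset_right
      exact ⟨F, hF, hF'⟩)
    ⟨F, hF1, hF2⟩ hHC (by
      have h2 : (0 : ℝ) < ((N₀ : ℝ) + 1) * 2 ^ n := by positivity
      rw [lt_div_iff₀ h2] at hN
      have h3 : 0 ≤ (1 - 1 / (2 * (b' : ℝ))) ^ N * 2 ^ n := by
        have : 0 ≤ 1 - 1 / (2 * (b' : ℝ)) := by
          have : 1 / (2 * (b' : ℝ)) ≤ 1 := by
            rw [div_le_one (by positivity)]; linarith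
          linarith
        positivity
      rw [pow_zero]
      nlinarith)
  set s : ℝ := t₀ / 2 ^ k with hs
  have hs0 : 0 < s := by positivity
  have hst : s ≤ t₀ := hle k
  have hsN : t₀ / 2 ^ N ≤ s := by
    rw [hs]
    gcongr
    exact one_le_two
  have hwP : w ∈ P := hw
  have hwy : dist w y ≤ 2 * t := hP hwP
  have r0 : 0 < 2 * t := by positivity
  have s0 : 0 < 2 * s := by positivity
  have hsr : 2 * s ≤ 2 * t / 2 := by linarith
  have hlr : lam * (2 * t) ≤ 2 * s := by linarith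
  have h8 : 4 * (2 * t) = 8 * t := by ring
  have h8' : 4 * (2 * s) = 8 * s := by ring
  have hpx : ∀ i, ∃ σ : ℝ, |σ| ≤ 1 / (16 * n) ∧ S.GN (p i) x w (8 * s) σ (η' * S.V w (2 * s)) := by
    intro i
    have hd := hc' w hwP
    have hd0 : 0 < dist x w := by
      by_contra hn
      have : dist x w = 0 := le_antisymm (not_lt.1 hn) dist_nonneg
      rw [this, mul_zero] at hd
      linarith
    refine ⟨(dist (p i) w - dist (p i) x) / dist x w, ?_, ?_⟩
    · rw [abs_div, abs_of_pos hd0, div_le_iff₀ hd0]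
      calc _ ≤ dist x w / (16 * n) := hh w hwP i
        _ = _ := by ring
    · rw [← h8']
      exact hsl S hS (p i) y x w (2 * t) (2 * s) r0 (hK.trans e1)
        (pl_mono hax r0 (hp i) e1) hx hwy hlr (by linarith)
  refine hno S hS ⟨w, s, P ∩ closedBall w (2 * s), Fin.snoc (α := fun _ => S.X) p x, by linarith,
    (hKt s hs0.le (by linarith)).trans (by linarith), inter_subset_right, hHC',
    fun i => ?_, fun i i' hii => ?_⟩
  · refine Fin.lastCases ?_ (fun i => ?_) i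
    · rw [Fin.snoc_last]
      exact hpl w hwP _ (by linarith) (by linarith)
    · rw [Fin.snoc_castSucc]
      exact pl_pass hax r0 s0 hwy hsr hlam hlr hK1 hη0.le e3 e2 hη1 (hp i)
  · revert hii
    refine Fin.lastCases ?_ (fun i => ?_) i
    · intro hii
      exact absurd (Fin.le_last i') (not_le.2 hii)
    · refine Fin.lastCases ?_ (fun i' => ?_) i'
      · intro _
        rw [Fin.snoc_last, Fin.snoc_castSucc]
        exact hpx i
      · intro hii
        rw [Fin.snoc_castSucc, Fin.snoc_castSucc]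
        obtain ⟨σ, hσ, hG⟩ := hg i i' (by simpa using hii)
        rw [← h8] at hG
        refine ⟨σ, hσ, ?_⟩
        rw [← h8']
        exact gn_pass hax r0 s0 hwy hsr hlam hlr hK1 hη0.le e3 hG

end Vale.Agent.P210.R2.H546
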