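import Vale.Agent.P210.R2.H546.StepF

open Set Metric
open Vale.Agent.P210.R2.H53 (HCge)
open Vale.Agent.P210.R2.H401

namespace Vale.Agent.P210.R2.H546

/-- the state data at the ball `B(y, 2t)` -/
def Data (n j : ℕ) (η : ℝ) (S : Sp) (y : S.X) (t : ℝ) (p : Fin j → S.X) : Prop :=
  0 < t ∧ S.K * (2 * t) ^ 2 ≤ η ∧ (∀ i, PL S η (p i) y (2 * t)) ∧
    ∀ i k, i < k → ∃ σ : ℝ, |σ| ≤ 1 / (16 * n) ∧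
      S.GN (p i) (p k) y (8 * t) σ (η * S.V y (2 * t))

/-- the cases nonconical and bad -/
def NB : Prop := ∀ (n : ℕ) (C : Sp → Prop), 2 ≤ n → Inp n C → ∀ (j b' : ℕ) (η' : ℝ), 1 ≤ b' →
  0 < η' → η' ≤ 1 → Fini n C j b' η' → ∀ g > 0, g ≤ 1 → ∀ c₁ > 0, ∃ L > 0, ∃ M₀ : ℕ,
  ∀ M ≥ M₀, ∃ b₀ : ℕ, ∃ η > 0, ∀ S, C S → ∀ (y x : S.X) (t : ℝ) (p : Fin j → S.X)
    (P : Set S.X) (b : ℕ), b₀ ≤ b → 2 ^ b ≤ t → Data n j η S y t p → dist x y ≤ 2 * t →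
  P ⊆ closedBall y (2 * t) → (∀ z ∈ P, g / 2 * t ≤ dist x z) →
  (∀ z ∈ P, ∀ i, |dist (p i) z - dist (p i) x| ≤ dist x z / (16 * n)) →
  (∀ z ∈ P, L * ((1 / 2) ^ M) ^ n * S.V z (2 * t) < S.V z (2 * t / 2 ^ M)) →
  ¬ HCge n (t / 2 ^ b) P (c₁ * t ^ (n - 1))

/-- the conical case -/
def CON : Prop := ∀ (n : ℕ) (C : Sp → Prop), 2 ≤ n → Inp n C → ∀ (j b' : ℕ) (η' : ℝ),
  j + 2 ≤ n → 1 ≤ b' → 0 < η' → η' ≤ 1 → Fini n C j b' η' → ∀ c₁ > 0, ∀ L > 0, ∃ a : ℕ,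
  ∀ M₀ : ℕ, ∃ N : ℕ, M₀ ≤ N + a ∧ ∃ b₀ : ℕ, ∃ η > 0, ∀ S, C S → ∀ (y : S.X) (t : ℝ)
    (p : Fin j → S.X) (P : Set S.X) (b : ℕ), b₀ ≤ b → 2 ^ b ≤ t → Data n j η S y t p →
  P ⊆ closedBall y (2 * t) →
  (∀ z ∈ P, S.V z (2 * t / 2 ^ (N + a)) ≤ L * ((1 / 2) ^ (N + a)) ^ n * S.V z (2 * t)) →
  ¬ HCge n (t / 2 ^ b) P (c₁ * t ^ (n - 1))

theorem data_mono {n : ℕ} {S : Sp} (hax : Ax n S) {j : ℕ} {η η' : ℝ} {y : S.X} {t : ℝ}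
    {p : Fin j → S.X} (h : Data n j η S y t p) (hη : η ≤ η') : Data n j η' S y t p := by
  obtain ⟨h1, h2, h3, h4⟩ := h
  refine ⟨h1, h2.trans hη, fun i => pl_mono hax (by positivity) (h3 i) hη, fun i k hik => ?_⟩
  obtain ⟨σ, hσ, hg⟩ := h4 i k hik
  refine ⟨σ, hσ, hax.gn _ _ _ _ _ _ _ _ _ ?_ ?_ hg⟩
  · rw [dist_self]; linarith
  · have := hax.pos y (2 * t) (by positivity)
    gcongr

end Vale.Agent.P210.R2.H546
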