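import Vale.Agent.P210.R2.H401.CSpec
import Mathlib.MeasureTheory.Covering.Vitali

open Set Metric

namespace Vale.Agent.P210.R2.H546

theorem vit : H401.Stmt.VIT := by
  intro X _ P t R h
  obtain ⟨u, hu, hd, hc⟩ := Vitali.exists_disjoint_subfamily_covering_enlargement
    (fun z : X => {p : X × X | (p.1 = z ∨ p.2 = z) ∧
      (p.1 = p.2 ∨ dist p.1 p.2 < 16 * t p.1 + 16 * t p.2)}) P t 2 one_lt_two
    (fun a ha => (h a ha).1.le) R (fun a ha => (h a ha).2)
    (fun a _ => ⟨(a, a), Or.inl rfl, Or.inl rfl⟩)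
  refine ⟨u, hu, fun z hz z' hz' hne => ?_, fun a ha => ?_⟩
  · by_contra hn
    push Not at hn
    have hd' := Set.disjoint_left.1 (hd hz hz' hne)
    exact @hd' (z, z') ⟨Or.inl rfl, Or.inr hn⟩ ⟨Or.inr rfl, Or.inr hn⟩
  · obtain ⟨b, hb, ⟨⟨p, q⟩, ⟨h1, h2⟩, h3, -⟩, h4⟩ := hc a ha
    refine ⟨b, hb, ?_⟩
    have ht := (h b (hu hb)).1
    simp only at h1 h2 h3
    have key : a = b ∨ dist a b < 16 * t a + 16 * t b := by
      rcases h1 with h1 | h1 <;> rcases h3 with h3 | h3 <;> subst h1
      · exact Or.inl h3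
      · subst h3
        exact h2
      · subst h3
        rcases h2 with h2 | h2
        · exact Or.inl h2.symm
        · right; rw [dist_comm]; linarith
      · exact Or.inl h3
    rcases key with rfl | hk
    · rw [dist_self]; positivity
    · linarith

end Vale.Agent.P210.R2.H546
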